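import Vale.Agent.P097.H202.Lines2
import Vale.Agent.P097.Reg.STab

/-! # P097 / RAT: tables whose curvature radius has a rational logarithmic derivative.
Definitions and interfaces.

Owner: helper402.  Paper proof: note of helper402 (problem P097, kind proof, program RAT).
`φ` = normal angle of a boundary point (vertex), `y` = half angle at the vertex; the lines through
the vertex have directions (normal angles) `φ + y`. -/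

set_option linter.all false

open Complex Metric Filter Topology Set Polynomial
open scoped ComplexConjugate

namespace Vale.Agent.P097.H402.Rat

open Vale.Agent.P097.TA Vale.Agent.P097.H202

/-! ## 1. The pencil Hamiltonian of a table near the real axis -/

/-- box around the real axis -/
def BX (δ : ℝ) : Set (ℂ × ℂ) := {p | |p.1.im| < δ ∧ ‖p.2‖ < δ}

/-- chord equation: the line of direction `φ + y` through the boundary point with normal angle `φ`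
passes through the boundary point with normal angle `φ + x` -/
def Chord (R : ℂ → ℂ) (φ x y : ℂ) : Prop :=
  ∫ s in (0 : ℝ)..1, R (φ + s * x) * Complex.sin (s * x - y) = 0

/-- iterates of the billiard map `(φ, y) ↦ (φ + X, X - y)` in vertex coordinates -/
noncomputable def Tn (X : ℂ → ℂ → ℂ) : ℕ → ℂ × ℂ → ℂ × ℂ
  | 0, p => p
  | n + 1, p => ((Tn X n p).1 + X (Tn X n p).1 (Tn X n p).2,
      X (Tn X n p).1 (Tn X n p).2 - (Tn X n p).2)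

/-- truncation of `log (1 + Δ)` applied to the vertex angle -/
noncomputable def newt (X : ℂ → ℂ → ℂ) (m : ℕ) (φ y : ℂ) : ℂ :=
  ∑ n ∈ Finset.Icc 1 m, (-1 : ℂ) ^ (n + 1) / n *
    ∑ k ∈ Finset.range (n + 1), (-1 : ℂ) ^ (n - k) * (n.choose k : ℂ) * (Tn X k (φ, y)).1

/-- The pencil Hamiltonian `E` of a table: `R` = radius of curvature, `R φ * E φ y` = interpolating
Hamiltonian of the billiard map at the vertex `φ` with half angle `y`, `ξ` = velocity of the vertex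
under its flow, `X` = chord map. -/
structure Pen (R : ℂ → ℂ) (δ : ℝ) (E ξ X : ℂ → ℂ → ℂ) : Prop where
  hδ : 0 < δ
  dR : DifferentiableOn ℂ R (Str δ)
  R0 : ∀ z ∈ Str δ, R z ≠ 0
  Rp : ∀ z ∈ Str δ, R (z + 2 * Real.pi) = R z
  Rpos : ∀ x : ℝ, ∃ c : ℝ, 0 < c ∧ R x = c
  jE : JD E (BX δ)
  jξ : JD ξ (BX δ)
  jX : JD X (BX δ)
  Ep : ∀ φ y : ℂ, (φ, y) ∈ BX δ → E (φ + 2 * Real.pi) y = E φ y
  /-- law 1 (reflection) -/
  odd : ∀ φ y : ℂ, (φ, y) ∈ BX δ → E φ (-y) = -E φ y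
  /-- law 2 (the two ends of a chord) -/
  chord : ∀ φ x y : ℂ, |φ.im| < δ → |(φ + x).im| < δ → ‖x‖ < δ → ‖y‖ < δ → ‖x - y‖ < δ →
    Chord R φ x y → R φ * E φ y = R (φ + x) * E (φ + x) (x - y)
  E0 : ∀ φ : ℂ, |φ.im| < δ → E φ 0 = 0
  dE : ∀ φ y : ℂ, (φ, y) ∈ BX δ → HasDerivAt (fun y => E φ y) (ξ φ y * Complex.sin y) y
  X0 : ∀ φ : ℂ, |φ.im| < δ → X φ 0 = 0
  Xc : ∃ ε > 0, ∀ φ y : ℂ, |φ.im| < ε → ‖y‖ < ε → Chord R φ (X φ y) y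
  newton : ∀ m : ℕ, ∃ ε > 0, ∃ C : ℝ, ∀ φ y : ℂ, |φ.im| < ε → ‖y‖ < ε →
    ‖ξ φ y - newt X m φ y‖ ≤ C * ‖y‖ ^ (m + 1)

/-- RAT-A: the pencil Hamiltonian of an integrable table (from `H402.main_cx_of famEx` and
`H202.exists_AL`, `H202.exists_lines`) -/
def PA : Prop := ∀ (h : ℝ → ℝ) (η : ℝ), 0 < η → SmoothTable h → Collar h η →
  ∃ (R : ℂ → ℂ) (δ : ℝ) (E ξ X : ℂ → ℂ → ℂ),
    (∀ x : ℝ, R x = ((h x + deriv (deriv h) x : ℝ) : ℂ)) ∧ Pen R δ E ξ X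

/-! ## 2. Rational logarithmic derivative -/

/-- `z = exp (i φ)` -/
noncomputable def ez (φ : ℂ) : ℂ := Complex.exp (I * φ)

/-- `R' / R = N(z) / D(z)`, `z = exp (i φ)`, in lowest terms and without real poles -/
structure RatLog (R : ℂ → ℂ) (N D : ℂ[X]) : Prop where
  cop : IsCoprime N D
  D0 : ∀ z : ℂ, ‖z‖ = 1 → D.eval z ≠ 0
  ode : ∀ x : ℝ, deriv R x * D.eval (ez x) = N.eval (ez x) * R x

/-- Taylor coefficients of the pencil Hamiltonian -/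
noncomputable def co (E : ℂ → ℂ → ℂ) (m : ℕ) (φ : ℂ) : ℂ :=
  iteratedDeriv m (fun y => E φ y) 0 / (m.factorial : ℂ)

/-- the polynomials of the pencil Hamiltonian: `co E m = Q m (z) / D(z) ^ (m - 3)` -/
structure Pol (N D : ℂ[X]) (E : ℂ → ℂ → ℂ) (Q : ℕ → ℂ[X]) : Prop where
  deg : ∀ m, (Q m).natDegree ≤ (m - 3) * max N.natDegree D.natDegree
  Q3 : Q 3 = C (2 / 3)
  Q2 : ∀ m < 3, Q m = 0
  eq : ∀ (m : ℕ) (x : ℝ), co E m x * D.eval (ez x) ^ (m - 3) = (Q m).eval (ez x)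

/-- RAT-B: locality -/
def PB : Prop := ∀ (R : ℂ → ℂ) (δ : ℝ) (E ξ X : ℂ → ℂ → ℂ) (N D : ℂ[X]),
  Pen R δ E ξ X → RatLog R N D → ∃ Q : ℕ → ℂ[X], Pol N D E Q

/-- RAT-C: Bernstein inequality -/
def PC : Prop := ∀ (R : ℂ → ℂ) (δ : ℝ) (E ξ X : ℂ → ℂ → ℂ) (N D : ℂ[X]) (Q : ℕ → ℂ[X]),
  Pen R δ E ξ X → RatLog R N D → Pol N D E Q →
  ∃ C : ℝ, 0 < C ∧ ∀ (m : ℕ) (z : ℂ),
    ‖(Q m).eval z‖ ≤ C ^ m * max 1 ‖z‖ ^ ((m - 3) * max N.natDegree D.natDegree)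

/-! ## 3. The limits at the ends -/

/-- `(e ^ z - 1) / z` -/
noncomputable def Ex (z : ℂ) : ℂ := if z = 0 then 1 else (Complex.exp z - 1) / z

/-- direction (over vertex direction `1`) of the chord from `1` to `e ^ τ` when the radius of
curvature is `u ^ σ` -/
noncomputable def aB (σ : ℝ) (τ : ℂ) : ℂ := Ex ((σ + 2) * τ) / Ex ((σ + 1) * τ)

/-- pencil law at a simple pole with residue `σ` -/
structure LawB (σ : ℝ) (f : ℂ → ℂ) : Prop where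
  an : AnalyticAt ℂ f 1
  ne : ¬ ∀ᶠ A in 𝓝 (1 : ℂ), f A = 0
  refl : ∀ᶠ A in 𝓝 (1 : ℂ), f (2 - A) = -f A
  chord : ∀ᶠ τ in 𝓝 (0 : ℂ), f (aB σ τ) = -(Complex.exp ((σ + 3) * τ) * f (aB σ (-τ)))

/-- pencil law at a multiple pole -/
structure LawE (f : ℂ → ℂ) : Prop where
  an : AnalyticAt ℂ f 0
  ne : ¬ ∀ᶠ A in 𝓝 (0 : ℂ), f A = 0
  refl : ∀ᶠ A in 𝓝 (0 : ℂ), f (-A) = -f A
  chord : ∀ᶠ x in 𝓝 (0 : ℂ),
    f (1 / Ex (-x) - 1) = -(Complex.exp x * f (1 / Ex x - 1))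

/-- isotropic chord -/
noncomputable def vI (m : ℝ) (s : ℂ) : ℂ := Complex.log (Ex ((3 + m) * s) / Ex ((3 - m) * s))

/-- pencil law at an isotropic end -/
structure LawI (m : ℝ) (f : ℂ → ℂ) : Prop where
  an : AnalyticAt ℂ f 0
  ne : ¬ ∀ᶠ A in 𝓝 (0 : ℂ), f A = 0
  refl : ∀ᶠ A in 𝓝 (0 : ℂ), f (-A) = -f A
  chord : ∀ᶠ s in 𝓝 (0 : ℂ), f (vI m s) = -(Complex.exp (3 * s) * f (vI m (-s)))

/-- all the data of RAT-A, RAT-B, RAT-C -/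
structure Dat (R : ℂ → ℂ) (δ : ℝ) (E ξ X : ℂ → ℂ → ℂ) (N D : ℂ[X]) (Q : ℕ → ℂ[X]) (C : ℝ) :
    Prop where
  pen : Pen R δ E ξ X
  rat : RatLog R N D
  pol : Pol N D E Q
  hC : 0 < C
  bd : ∀ (m : ℕ) (z : ℂ),
    ‖(Q m).eval z‖ ≤ C ^ m * max 1 ‖z‖ ^ ((m - 3) * max N.natDegree D.natDegree)

/-- RAT-D1: the limit at a simple pole `z₀` with residue `σ` -/
def PD1 : Prop := ∀ (R : ℂ → ℂ) (δ : ℝ) (E ξ X : ℂ → ℂ → ℂ) (N D : ℂ[X]) (Q : ℕ → ℂ[X]) (C : ℝ),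
  Dat R δ E ξ X N D Q C → ∀ (z₀ : ℂ) (σ : ℝ), z₀ ≠ 0 → D.eval z₀ = 0 →
  (derivative D).eval z₀ ≠ 0 → N.eval z₀ = I * z₀ * σ * (derivative D).eval z₀ →
  ∃ f, LawB σ f

/-- RAT-D2: the limit at a multiple pole, or at a pole of `N / D` at `z = 0` -/
def PD2 : Prop := ∀ (R : ℂ → ℂ) (δ : ℝ) (E ξ X : ℂ → ℂ → ℂ) (N D : ℂ[X]) (Q : ℕ → ℂ[X]) (C : ℝ),
  Dat R δ E ξ X N D Q C → ∀ z₀ : ℂ, D.eval z₀ = 0 → (z₀ = 0 ∨ (derivative D).eval z₀ = 0) →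
  ∃ f, LawE f

/-- RAT-D3: the limit at the isotropic end -/
def PD3 : Prop := ∀ (R : ℂ → ℂ) (δ : ℝ) (E ξ X : ℂ → ℂ → ℂ) (N D : ℂ[X]) (Q : ℕ → ℂ[X]) (C : ℝ),
  Dat R δ E ξ X N D Q C → ∀ a : ℝ, 0 < a → D.eval 0 ≠ 0 → N.eval 0 = I * a * D.eval 0 →
  ∃ f, LawI (3 / a) f

/-! ## 4. The kills -/

/-- RAT-K1 -/
def PK1 : Prop := ∀ (σ : ℝ) (f : ℂ → ℂ), -1 < σ → σ ≠ 0 → ¬ LawB σ f

/-- RAT-K2 -/
def PK2 : Prop := ∀ (σ : ℝ) (f : ℂ → ℂ), -3 / 2 < σ → σ ≤ -1 → ¬ LawB σ f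

/-- RAT-K3 -/
def PK3 : Prop := ∀ (σ : ℝ) (f : ℂ → ℂ), -2 < σ → σ < -3 / 2 → ¬ LawB σ f

/-- RAT-K4 -/
def PK4 : Prop := ∀ f : ℂ → ℂ, ¬ LawE f

/-- RAT-K5 -/
def PK5 : Prop := ∀ (m : ℝ) (f : ℂ → ℂ), 0 < m → m < 3 → m ≠ 1 → ¬ LawI m f

/-! ## 5. Classification and algebra -/

/-- RAT-F: what is left is an ellipse -/
def PF : Prop := ∀ (h : ℝ → ℝ) (R : ℂ → ℂ) (δ : ℝ) (N D : ℂ[X]), SmoothTable h → 0 < δ →
  DifferentiableOn ℂ R (Str δ) → (∀ x : ℝ, R x = ((h x + deriv (deriv h) x : ℝ) : ℂ)) →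
  RatLog R N D → D.eval 0 ≠ 0 →
  (∀ z₀ : ℂ, D.eval z₀ = 0 → (derivative D).eval z₀ ≠ 0 ∧
    ∃ σ : ℝ, N.eval z₀ = I * z₀ * σ * (derivative D).eval z₀ ∧ (σ = -3 / 2 ∨ σ ≤ -2)) →
  (∀ a : ℝ, 1 < a → N.eval 0 = I * a * D.eval 0 → a = 3) →
  ∃ a b φ p q : ℝ, 0 < a ∧ 0 < b ∧ h = fun ψ => p * Real.cos ψ + q * Real.sin ψ +
    √(a ^ 2 * Real.cos (ψ - φ) ^ 2 + b ^ 2 * Real.sin (ψ - φ) ^ 2)

/-- real trigonometric polynomials -/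
def TrigP (f : ℝ → ℝ) : Prop :=
  ∃ (n : ℕ) (a b : ℕ → ℝ), ∀ x : ℝ,
    f x = ∑ k ∈ Finset.range (n + 1), (a k * Real.cos (k * x) + b k * Real.sin (k * x))

/-- the class of tables of the theorem: `ρ = exp (U / V) ∏ Pᵢ ^ sᵢ` -/
def RatCl (g : ℝ → ℝ) : Prop :=
  ∃ (U V : ℝ → ℝ) (n : ℕ) (P : Fin n → ℝ → ℝ) (s : Fin n → ℝ), TrigP U ∧ TrigP V ∧
    (∀ x, V x ≠ 0) ∧ (∀ i, TrigP (P i)) ∧ (∀ i x, 0 < P i x) ∧
    ∀ x, g x = Real.exp (U x / V x) * ∏ i, P i x ^ s i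

/-- RAT-G: the class has rational logarithmic derivatives, with real residues at simple poles -/
def PG : Prop := ∀ (g : ℝ → ℝ) (R : ℂ → ℂ) (δ : ℝ), 0 < δ → DifferentiableOn ℂ R (Str δ) →
  (∀ x : ℝ, R x = (g x : ℂ)) → RatCl g →
  ∃ N D : ℂ[X], RatLog R N D ∧
    (∀ z₀ : ℂ, z₀ ≠ 0 → D.eval z₀ = 0 → (derivative D).eval z₀ ≠ 0 →
      ∃ σ : ℝ, N.eval z₀ = I * z₀ * σ * (derivative D).eval z₀)

/-- RAT-Z: the theorem -/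
def PZ : Prop := ∀ (h : ℝ → ℝ) (η : ℝ), 0 < η → SmoothTable h → Collar h η →
  RatCl (fun x => h x + deriv (deriv h) x) →
  ∃ a b φ p q : ℝ, 0 < a ∧ 0 < b ∧ h = fun ψ => p * Real.cos ψ + q * Real.sin ψ +
    √(a ^ 2 * Real.cos (ψ - φ) ^ 2 + b ^ 2 * Real.sin (ψ - φ) ^ 2)

/-- assembly -/
theorem pz (pA : PA) (pB : PB) (pC : PC) (pD1 : PD1) (pD2 : PD2) (pD3 : PD3) (k1 : PK1)
    (k2 : PK2) (k3 : PK3) (k4 : PK4) (k5 : PK5) (pF : PF) (pG : PG) : PZ := by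
  intro h η hη hs hc hr
  obtain ⟨R, δ, E, ξ, X, hR, P⟩ := pA h η hη hs hc
  obtain ⟨N, D, hRL, hres⟩ := pG _ R δ P.hδ P.dR hR hr
  obtain ⟨Q, hQ⟩ := pB R δ E ξ X N D P hRL
  obtain ⟨C, hC, hbd⟩ := pC R δ E ξ X N D Q P hRL hQ
  have T : Dat R δ E ξ X N D Q C := ⟨P, hRL, hQ, hC, hbd⟩
  have h0 : D.eval 0 ≠ 0 := by
    intro h0
    obtain ⟨f, hf⟩ := pD2 R δ E ξ X N D Q C T 0 h0 (Or.inl rfl)
    exact k4 f hf
  have hz0 : ∀ z₀ : ℂ, D.eval z₀ = 0 → z₀ ≠ 0 := by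
    rintro z₀ hz rfl
    exact h0 hz
  have hsimple : ∀ z₀ : ℂ, D.eval z₀ = 0 → (derivative D).eval z₀ ≠ 0 := by
    intro z₀ hz hd
    obtain ⟨f, hf⟩ := pD2 R δ E ξ X N D Q C T z₀ hz (Or.inr hd)
    exact k4 f hf
  refine pF h R δ N D hs P.hδ P.dR hR hRL h0 ?_ ?_
  · intro z₀ hz
    have hd := hsimple z₀ hz
    obtain ⟨σ, hσ⟩ := hres z₀ (hz0 z₀ hz) hz hd
    refine ⟨hd, σ, hσ, ?_⟩
    obtain ⟨f, hf⟩ := pD1 R δ E ξ X N D Q C T z₀ σ (hz0 z₀ hz) hz hd hσ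
    by_contra hcon
    push Not at hcon
    obtain ⟨c1, c2⟩ := hcon
    have hσ0 : σ ≠ 0 := by
      rintro rfl
      have hN : N.eval z₀ = 0 := by rw [hσ]; simp
      obtain ⟨u, v, huv⟩ := hRL.cop
      have := congrArg (Polynomial.eval z₀) huv
      simp [hN, hz] at this
    rcases lt_or_ge σ (-3 / 2) with h1 | h1
    · exact k3 σ f c2 h1 hf
    rcases eq_or_lt_of_le h1 with h1' | h1'
    · exact c1 h1'.symm
    rcases le_or_gt σ (-1) with h2 | h2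
    · exact k2 σ f h1' h2 hf
    · exact k1 σ f h2 hσ0 hf
  · intro a ha hN
    by_contra h3
    obtain ⟨f, hf⟩ := pD3 R δ E ξ X N D Q C T a (by linarith) h0 hN
    refine k5 (3 / a) f (by positivity) ?_ ?_ hf
    · rw [div_lt_iff₀ (by linarith)]
      linarith
    · intro h4
      rw [div_eq_one_iff_eq (by linarith)] at h4
      exact h3 h4.symm

end Vale.Agent.P097.H402.Rat
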