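import Mathlib

/-! # P097 / RAT-B: the filtration `Q(z) / D(z) ^ n` and weighted power series -/

set_option linter.all false

open Complex
open scoped Polynomial

namespace Vale.Agent.P097.H402.Rat

section A

open Polynomial

/-- `B x * D(e^{ix})^n = Q(e^{ix})`, `deg Q ≤ n M` -/
def Am (D : ℂ[X]) (M : ℕ) (n : ℕ) (B : ℝ → ℂ) : Prop :=
  ∃ Q : ℂ[X], Q.natDegree ≤ n * M ∧
    ∀ x : ℝ, B x * D.eval (Complex.exp (I * (x : ℂ))) ^ n = Q.eval (Complex.exp (I * (x : ℂ)))

variable {D : ℂ[X]} {M : ℕ}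

theorem Am.add {n : ℕ} {A B : ℝ → ℂ} (hA : Am D M n A) (hB : Am D M n B) :
    Am D M n (A + B) := by
  obtain ⟨P, hP, h1⟩ := hA
  obtain ⟨Q, hQ, h2⟩ := hB
  refine ⟨P + Q, (natDegree_add_le _ _).trans (max_le hP hQ), fun x => ?_⟩
  rw [Pi.add_apply, add_mul, h1, h2, eval_add]

theorem Am.zero (n : ℕ) : Am D M n 0 := ⟨0, by simp, fun x => by simp⟩

theorem Am.sum {ι : Type*} {n : ℕ} (s : Finset ι) {A : ι → ℝ → ℂ} (h : ∀ i ∈ s, Am D M n (A i)) :
    Am D M n (∑ i ∈ s, A i) := by
  classical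
  induction s using Finset.induction_on with
  | empty => simpa using Am.zero n
  | insert a s ha ih =>
    rw [Finset.sum_insert ha]
    exact (h a (Finset.mem_insert_self _ _)).add
      (ih fun i hi => h i (Finset.mem_insert_of_mem hi))

theorem Am.mul {m n : ℕ} {A B : ℝ → ℂ} (hA : Am D M m A) (hB : Am D M n B) :
    Am D M (m + n) (A * B) := by
  obtain ⟨P, hP, h1⟩ := hA
  obtain ⟨Q, hQ, h2⟩ := hB
  refine ⟨P * Q, natDegree_mul_le.trans (by rw [add_mul]; exact add_le_add hP hQ), fun x => ?_⟩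
  rw [Pi.mul_apply, eval_mul, ← h1, ← h2, pow_add]
  ring

theorem Am.const (c : ℂ) : Am D M 0 (fun _ => c) := ⟨C c, by simp, fun x => by simp⟩

theorem Am.mono (hD : D.natDegree ≤ M) {m n : ℕ} (h : m ≤ n) {A : ℝ → ℂ} (hA : Am D M m A) :
    Am D M n A := by
  obtain ⟨P, hP, h1⟩ := hA
  obtain ⟨k, rfl⟩ := Nat.exists_eq_add_of_le h
  refine ⟨P * D ^ k, natDegree_mul_le.trans ?_, fun x => ?_⟩
  · have := natDegree_pow_le (p := D) (n := k)
    rw [add_mul]
    exact add_le_add hP (this.trans (Nat.mul_le_mul_left _ hD))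
  · rw [eval_mul, eval_pow, ← h1, pow_add]
    ring

theorem Am.smul (hD : D.natDegree ≤ M) {n : ℕ} (c : ℂ) {A : ℝ → ℂ} (hA : Am D M n A) :
    Am D M n (fun x => c * A x) := by
  have := (Am.const (D := D) (M := M) c).mul hA
  rwa [zero_add] at this

theorem Am.neg {n : ℕ} {A : ℝ → ℂ} (hA : Am D M n A) : Am D M n (-A) := by
  obtain ⟨P, hP, h1⟩ := hA
  refine ⟨-P, by rwa [natDegree_neg], fun x => ?_⟩
  rw [Pi.neg_apply, neg_mul, h1, eval_neg]

/-- weighted power series: the coefficient of `y ^ m` is in `Am (m - w)`, zero for `m < w` -/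
def WS (D : ℂ[X]) (M : ℕ) (w : ℕ) (f : PowerSeries (ℝ → ℂ)) : Prop :=
  ∀ m, (m < w → PowerSeries.coeff m f = 0) ∧ Am D M (m - w) (PowerSeries.coeff m f)

theorem WS.add {w : ℕ} {f g : PowerSeries (ℝ → ℂ)} (hf : WS D M w f) (hg : WS D M w g) :
    WS D M w (f + g) := fun m => ⟨fun h => by rw [map_add, (hf m).1 h, (hg m).1 h, add_zero], by
  rw [map_add]
  exact (hf m).2.add (hg m).2⟩

theorem WS.neg {w : ℕ} {f : PowerSeries (ℝ → ℂ)} (hf : WS D M w f) : WS D M w (-f) :=
  fun m => ⟨fun h => by rw [map_neg, (hf m).1 h, neg_zero], by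
    rw [map_neg]
    exact (hf m).2.neg⟩

theorem WS.zero (w : ℕ) : WS D M w 0 := fun m => ⟨fun h => by simp, by
  simpa using Am.zero (m - w)⟩

theorem WS.sum {ι : Type*} {w : ℕ} (s : Finset ι) {f : ι → PowerSeries (ℝ → ℂ)}
    (h : ∀ i ∈ s, WS D M w (f i)) : WS D M w (∑ i ∈ s, f i) := by
  classical
  induction s using Finset.induction_on with
  | empty => simpa using WS.zero w
  | insert a s ha ih =>
    rw [Finset.sum_insert ha]
    exact (h a (Finset.mem_insert_self _ _)).add
      (ih fun i hi => h i (Finset.mem_insert_of_mem hi))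

theorem WS.mul {v w : ℕ} {f g : PowerSeries (ℝ → ℂ)} (hf : WS D M v f) (hg : WS D M w g) :
    WS D M (v + w) (f * g) := by
  intro m
  constructor
  · intro h
    rw [PowerSeries.coeff_mul]
    refine Finset.sum_eq_zero fun p hp => ?_
    have hp' := Finset.HasAntidiagonal.mem_antidiagonal.mp hp
    rcases lt_or_ge p.1 v with h1 | h1
    · rw [(hf p.1).1 h1, zero_mul]
    · rw [(hg p.2).1 (by omega), mul_zero]
  · rw [PowerSeries.coeff_mul]
    refine Am.sum _ fun p hp => ?_
    have hp' := Finset.HasAntidiagonal.mem_antidiagonal.mp hp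
    rcases lt_or_ge p.1 v with h1 | h1
    · rw [(hf p.1).1 h1, zero_mul]
      exact Am.zero _
    rcases lt_or_ge p.2 w with h2 | h2
    · rw [(hg p.2).1 h2, mul_zero]
      exact Am.zero _
    have := (hf p.1).2.mul (hg p.2).2
    rwa [show p.1 - v + (p.2 - w) = m - (v + w) by omega] at this

theorem WS.one : WS D M 0 1 := by
  intro m
  refine ⟨fun h => by omega, ?_⟩
  rw [PowerSeries.coeff_one]
  split_ifs with h
  · subst h
    exact Am.const 1
  · exact Am.zero _

theorem WS.pow {w : ℕ} {f : PowerSeries (ℝ → ℂ)} (hf : WS D M w f) (k : ℕ) :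
    WS D M (k * w) (f ^ k) := by
  induction k with
  | zero => simpa using WS.one
  | succ k ih =>
    rw [pow_succ, add_mul, one_mul]
    exact ih.mul hf

/-- multiplication by a coefficient of weight `i` -/
theorem WS.cmul (hD : D.natDegree ≤ M) {w i v : ℕ} {a : ℝ → ℂ} {f : PowerSeries (ℝ → ℂ)}
    (ha : Am D M i a) (hf : WS D M w f) (hv : v + i ≤ w) : WS D M v (PowerSeries.C a * f) := by
  intro m
  rw [PowerSeries.coeff_C_mul]
  refine ⟨fun h => by rw [(hf m).1 (by omega), mul_zero], ?_⟩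
  rcases lt_or_ge m w with h1 | h1
  · rw [(hf m).1 h1, mul_zero]
    exact Am.zero _
  · exact (ha.mul (hf m).2).mono hD (by omega)

theorem WS.var : WS D M 1 (PowerSeries.X : PowerSeries (ℝ → ℂ)) := by
  intro m
  rw [PowerSeries.coeff_X]
  refine ⟨fun h => by rw [if_neg (by omega)], ?_⟩
  split_ifs with h
  · subst h
    exact Am.const 1
  · exact Am.zero _

theorem WS.mono (hD : D.natDegree ≤ M) {v w : ℕ} (h : v ≤ w) {f : PowerSeries (ℝ → ℂ)}
    (hf : WS D M w f) : WS D M v f := by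
  intro m
  refine ⟨fun h1 => (hf m).1 (by omega), (hf m).2.mono hD (by omega)⟩

/-- truncated version: only the coefficients below `n` -/
theorem WS_trunc {w n : ℕ} {f : PowerSeries (ℝ → ℂ)}
    (h : ∀ m < n, (m < w → PowerSeries.coeff m f = 0) ∧ Am D M (m - w) (PowerSeries.coeff m f)) :
    WS D M w (PowerSeries.trunc n f : PowerSeries (ℝ → ℂ)) := by
  intro m
  rw [Polynomial.coeff_coe, PowerSeries.coeff_trunc]
  split_ifs with hm
  · exact h m hm
  · exact ⟨fun _ => rfl, Am.zero _⟩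

end A

variable {D : ℂ[X]} {M : ℕ}

/-- coefficients of `∫₀¹ (u + s x)^i (s x - v)^l ds` -/
noncomputable def kap (i l a b : ℕ) : ℂ :=
  ((i.choose a : ℂ) * (l.choose b : ℂ) * (-1) ^ (l - b)) / (a + b + 1)

/-- the homogeneous polynomials `∫₀¹ (u + s x)^i (s x - v)^l ds` -/
noncomputable def Pil {K : Type*} [CommRing K] (c : ℂ →+* K) (i l : ℕ) (u x v : K) : K :=
  ∑ a ∈ Finset.range (i + 1), ∑ b ∈ Finset.range (l + 1),
    c (kap i l a b) * (u ^ (i - a) * x ^ (a + b) * v ^ (l - b))

theorem Pil_map {K L : Type*} [CommRing K] [CommRing L] (c : ℂ →+* K) (f : K →+* L) (i l : ℕ)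
    (u x v : K) : f (Pil c i l u x v) = Pil (f.comp c) i l (f u) (f x) (f v) := by
  simp only [Pil, map_sum, map_mul, map_pow, RingHom.comp_apply]

/-- constants as power series over functions -/
noncomputable def cc : ℂ →+* PowerSeries (ℝ → ℂ) :=
  (PowerSeries.C : (ℝ → ℂ) →+* PowerSeries (ℝ → ℂ)).comp (Pi.constRingHom ℝ ℂ)

theorem cc_apply (a : ℂ) : cc a = PowerSeries.C (fun _ : ℝ => a) := rfl

theorem WS.pil (hD : D.natDegree ≤ M) {u x v : PowerSeries (ℝ → ℂ)} (hu : WS D M 1 u)
    (hx : WS D M 1 x) (hv : WS D M 1 v) (i l : ℕ) : WS D M (i + l) (Pil cc i l u x v) := by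
  refine WS.sum _ fun a ha => WS.sum _ fun b hb => ?_
  have ha' := Finset.mem_range.mp ha
  have hb' := Finset.mem_range.mp hb
  rw [cc_apply]
  refine WS.cmul hD (i := 0) (Am.const _) (((hu.pow _).mul (hx.pow _)).mul (hv.pow _)) ?_
  omega

open PowerSeries in
theorem dvd_pow_sub {K : Type*} [CommRing K] {p q : PowerSeries K} {m : ℕ}
    (h : (X : PowerSeries K) ^ m ∣ p - q) (hp : (X : PowerSeries K) ∣ p)
    (hq : (X : PowerSeries K) ∣ q) (c : ℕ) : (X : PowerSeries K) ^ (m + c) ∣ p ^ (c + 1) - q ^ (c + 1) := by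
  induction c with
  | zero => simpa using h
  | succ c ih =>
    have e : p ^ (c + 1 + 1) - q ^ (c + 1 + 1) = p * (p ^ (c + 1) - q ^ (c + 1)) +
        (p - q) * q ^ (c + 1) := by ring
    rw [e]
    refine dvd_add ?_ ?_
    · rw [show m + (c + 1) = 1 + (m + c) by ring, pow_add, pow_one]
      exact mul_dvd_mul hp ih
    · rw [pow_add]
      exact mul_dvd_mul h (pow_dvd_pow_of_dvd hq _)

open PowerSeries in
theorem Pil_congr {u x x' v : PowerSeries (ℝ → ℂ)} {m : ℕ}
    (h : (X : PowerSeries (ℝ → ℂ)) ^ m ∣ x - x') (hx : (X : PowerSeries (ℝ → ℂ)) ∣ x)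
    (hx' : (X : PowerSeries (ℝ → ℂ)) ∣ x') (hu : (X : PowerSeries (ℝ → ℂ)) ∣ u)
    (hv : (X : PowerSeries (ℝ → ℂ)) ∣ v) {i l : ℕ} (hil : 2 ≤ i + l) :
    coeff m (Pil cc i l u x v) = coeff m (Pil cc i l u x' v) := by
  simp only [Pil, map_sum]
  refine Finset.sum_congr rfl fun a ha => Finset.sum_congr rfl fun b hb => ?_
  have ha' := Finset.mem_range.mp ha
  have hb' := Finset.mem_range.mp hb
  rw [cc_apply, coeff_C_mul, coeff_C_mul]
  congr 1
  rcases Nat.eq_zero_or_pos (a + b) with h0 | h0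
  · rw [h0, pow_zero, pow_zero]
  obtain ⟨c, hc⟩ := Nat.exists_eq_add_of_lt h0
  rw [zero_add] at hc
  have h1 := dvd_pow_sub h hx hx' c
  rw [← hc] at h1
  have h2 : (X : PowerSeries (ℝ → ℂ)) ^ (m + 1) ∣
      u ^ (i - a) * x ^ (a + b) * v ^ (l - b) - u ^ (i - a) * x' ^ (a + b) * v ^ (l - b) := by
    have e : u ^ (i - a) * x ^ (a + b) * v ^ (l - b) - u ^ (i - a) * x' ^ (a + b) * v ^ (l - b) =
        u ^ (i - a) * (x ^ (a + b) - x' ^ (a + b)) * v ^ (l - b) := by ring
    rw [e]
    have h3 := mul_dvd_mul (mul_dvd_mul (pow_dvd_pow_of_dvd hu (i - a)) h1)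
      (pow_dvd_pow_of_dvd hv (l - b))
    rw [← pow_add, ← pow_add] at h3
    refine (pow_dvd_pow _ ?_).trans h3
    omega
  have h4 := X_pow_dvd_iff.mp h2 m (by omega)
  rw [map_sub, sub_eq_zero] at h4
  exact h4

open PowerSeries in
/-- **the chord step preserves the filtration** -/
theorem WS.chord (hD : D.natDegree ≤ M) {ρ : ℕ → ℝ → ℂ} {s : ℕ → ℂ} (hρ : ∀ i, Am D M i (ρ i))
    (hρ0 : ρ 0 = 1) (hs0 : s 0 = 0) (hs1 : s 1 = 1) {u x v : PowerSeries (ℝ → ℂ)}
    (hu : WS D M 1 u) (hv : WS D M 1 v) (hx0 : coeff 0 x = 0)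
    (H : ∀ n, ∀ j < n, coeff j (∑ i ∈ Finset.range n, ∑ l ∈ Finset.range n,
      C (fun t => ρ i t * s l) * Pil cc i l u x v) = 0) : WS D M 1 x := by
  have hXu : (X : PowerSeries (ℝ → ℂ)) ∣ u := by
    rw [X_dvd_iff, ← coeff_zero_eq_constantCoeff_apply]
    exact (hu 0).1 one_pos
  have hXv : (X : PowerSeries (ℝ → ℂ)) ∣ v := by
    rw [X_dvd_iff, ← coeff_zero_eq_constantCoeff_apply]
    exact (hv 0).1 one_pos
  have hXx : (X : PowerSeries (ℝ → ℂ)) ∣ x := by
    rw [X_dvd_iff, ← coeff_zero_eq_constantCoeff_apply]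
    exact hx0
  have main : ∀ m, (m < 1 → coeff m x = 0) ∧ Am D M (m - 1) (coeff m x) := by
    intro m
    induction m using Nat.strong_induction_on with
    | _ m ih =>
      rcases Nat.eq_zero_or_pos m with rfl | hm
      · refine ⟨fun _ => hx0, ?_⟩
        rw [hx0]
        exact Am.zero _
      refine ⟨fun h => by omega, ?_⟩
      set x' : PowerSeries (ℝ → ℂ) := (trunc m x : PowerSeries (ℝ → ℂ)) with hx'
      have hw' : WS D M 1 x' := WS_trunc ih
      have hXx' : (X : PowerSeries (ℝ → ℂ)) ∣ x' := by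
        rw [X_dvd_iff, ← coeff_zero_eq_constantCoeff_apply]
        exact (hw' 0).1 one_pos
      have hd : (X : PowerSeries (ℝ → ℂ)) ^ m ∣ x - x' := by
        rw [X_pow_dvd_iff]
        intro j hj
        rw [map_sub, hx', Polynomial.coeff_coe, coeff_trunc, if_pos hj, sub_self]
      have h1 := H (m + 1) m (by omega)
      simp only [map_sum] at h1
      -- isolate the linear term
      set T : ℕ → ℕ → ℝ → ℂ := fun i l => coeff m (C (fun t => ρ i t * s l) * Pil cc i l u x v)
        with hT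
      have hTl : ∀ i l, ¬ (i = 0 ∧ l = 1) → Am D M (m - 1) (T i l) := by
        intro i l hil
        rcases Nat.eq_zero_or_pos l with hl | hl
        · have : T i l = 0 := by
            rw [hT]
            simp only
            rw [coeff_C_mul, hl, hs0]
            funext t
            simp
          rw [this]
          exact Am.zero _
        · have h2 : 2 ≤ i + l := by
            by_contra hcon
            exact hil ⟨by omega, by omega⟩
          have h3 : T i l = coeff m (C (fun t => ρ i t * s l) * Pil cc i l u x' v) := by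
            rw [hT]
            simp only
            rw [coeff_C_mul, coeff_C_mul, Pil_congr hd hXx hXx' hXu hXv h2]
          rw [h3]
          have ha : Am D M i (fun t => ρ i t * s l) := by
            have := (hρ i).smul hD (s l)
            refine (by simpa [mul_comm] using this)
          have h4 := WS.cmul hD (v := 1) ha (WS.pil hD hu hw' hv i l) (by omega)
          exact (h4 m).2
      have h01 : T 0 1 = fun t => (1 / 2 : ℂ) * coeff m x t - coeff m v t := by
        rw [hT]
        simp only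
        rw [hρ0, hs1, coeff_C_mul, Pil]
        simp only [zero_add, Finset.sum_range_one, Finset.sum_range_succ, Finset.range_one,
          Finset.sum_singleton, pow_zero, one_mul, cc_apply, kap]
        funext t
        simp [coeff_C_mul]
        ring
      have h5 : ∑ i ∈ Finset.range (m + 1), ∑ l ∈ Finset.range (m + 1), T i l = 0 := h1
      have h6 : (∑ p ∈ (Finset.range (m + 1) ×ˢ Finset.range (m + 1)), T p.1 p.2) = 0 := by
        rw [Finset.sum_product]
        exact h5
      have hmem : ((0, 1) : ℕ × ℕ) ∈ Finset.range (m + 1) ×ˢ Finset.range (m + 1) := by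
        rw [Finset.mem_product, Finset.mem_range, Finset.mem_range]
        exact ⟨by omega, by omega⟩
      rw [← Finset.add_sum_erase _ _ hmem] at h6
      have h7 : Am D M (m - 1) (∑ p ∈ (Finset.range (m + 1) ×ˢ Finset.range (m + 1)).erase (0, 1),
          T p.1 p.2) := by
        refine Am.sum _ fun p hp => hTl _ _ ?_
        rintro ⟨h8, h9⟩
        exact (Finset.mem_erase.mp hp).1 (Prod.ext h8 h9)
      have h8 : coeff m x = fun t => (2 : ℂ) * ((coeff m v + -∑ p ∈ (Finset.range (m + 1) ×ˢ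
          Finset.range (m + 1)).erase (0, 1), T p.1 p.2) t) := by
        funext t
        have := congrFun h6 t
        rw [h01] at this
        simp only [Pi.add_apply, Pi.zero_apply, Pi.neg_apply] at this ⊢
        linear_combination 2 * this
      rw [h8]
      exact ((hv m).2.add h7.neg).smul hD 2
  exact main

end Vale.Agent.P097.H402.Rat
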