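import Vale.Agent.P097.H402.Rat.Exp
import Vale.Agent.P097.H402.Rat.Filt

/-! # P097 / RAT-B: expansion of the chord equation -/

set_option linter.all false

open Complex Metric Filter Topology Set Asymptotics
open scoped Polynomial

namespace Vale.Agent.P097.H402.Rat

theorem integral_pow_cx (k : ℕ) : ∫ s in (0 : ℝ)..1, (s : ℂ) ^ k = 1 / (k + 1) := by
  have h1 : ∀ s : ℝ, (s : ℂ) ^ k = ((s ^ k : ℝ) : ℂ) := fun s => by push_cast; rfl
  simp only [h1]
  rw [intervalIntegral.integral_ofReal, integral_pow]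
  push_cast
  simp

theorem int_pil (i l : ℕ) (u x v : ℂ) : ∫ s in (0 : ℝ)..1, (u + s * x) ^ i * (s * x - v) ^ l =
    Pil (RingHom.id ℂ) i l u x v := by
  have h1 : ∀ s : ℝ, (u + s * x) ^ i * (s * x - v) ^ l = ∑ a ∈ Finset.range (i + 1),
      ∑ b ∈ Finset.range (l + 1), ((i.choose a : ℂ) * (l.choose b : ℂ) * (-1) ^ (l - b) *
        (u ^ (i - a) * x ^ (a + b) * v ^ (l - b))) * (s : ℂ) ^ (a + b) := by
    intro s
    rw [add_comm u, add_pow, sub_eq_add_neg, add_pow, Finset.sum_mul_sum]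
    refine Finset.sum_congr rfl fun a _ => Finset.sum_congr rfl fun b _ => ?_
    rw [mul_pow, mul_pow, neg_pow v, pow_add, pow_add]
    ring
  simp only [h1]
  have hc : ∀ (c : ℂ) (k : ℕ), IntervalIntegrable (fun s : ℝ => c * (s : ℂ) ^ k)
      MeasureTheory.volume 0 1 := fun c k =>
    (Continuous.intervalIntegrable (by fun_prop) _ _)
  rw [intervalIntegral.integral_finset_sum fun a _ => by
    refine Continuous.intervalIntegrable ?_ _ _
    fun_prop]
  rw [Pil]
  refine Finset.sum_congr rfl fun a _ => ?_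
  rw [intervalIntegral.integral_finset_sum fun b _ => hc _ _]
  refine Finset.sum_congr rfl fun b _ => ?_
  rw [intervalIntegral.integral_const_mul, integral_pow_cx, kap, RingHom.id_apply]
  push_cast
  ring

theorem HE.pil {u x v : ℂ → ℂ} {U X V : PowerSeries ℂ} (hu : HE u U) (hx : HE x X) (hv : HE v V)
    (i l : ℕ) : HE (fun y => Pil (RingHom.id ℂ) i l (u y) (x y) (v y))
      (Pil PowerSeries.C i l U X V) := by
  refine HE.sum _ fun a _ => HE.sum _ fun b _ => ?_
  exact (HE.const _).mul (((hu.pow _).mul (hx.pow _)).mul (hv.pow _))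

/-- Taylor coefficients of `sin` -/
noncomputable def sn (l : ℕ) : ℂ := PowerSeries.coeff l (tay Complex.sin)

theorem sn_HE : HE Complex.sin (tay Complex.sin) :=
  HE_tay (Complex.analyticAt_sin)

theorem sn_zero : sn 0 = 0 := by simp [sn, tay]

theorem sn_one : sn 1 = 1 := by simp [sn, tay]

theorem HE.le {f : ℂ → ℂ} {c : PowerSeries ℂ} (h : HE f c) (n : ℕ) :
    ∃ C > 0, ∃ ε > 0, ∀ z : ℂ, ‖z‖ < ε → ‖f z - (PowerSeries.trunc n c).eval z‖ ≤ C * ‖z‖ ^ n := by
  obtain ⟨C, hC0, hC⟩ := (h n).exists_pos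
  obtain ⟨ε, hε, hb⟩ := Metric.eventually_nhds_iff.mp hC.bound
  refine ⟨C, hC0, ε, hε, fun z hz => ?_⟩
  have := hb (y := z) (by simpa using hz)
  rwa [norm_pow] at this

theorem chord_HE {F u x v : ℂ → ℂ} {r U X V : PowerSeries ℂ} (hF : HE F r)
    (hFd : ∃ ε > 0, ContinuousOn F (ball 0 ε))
    (hu : HE u U) (hx : HE x X) (hv : HE v V) (hu0 : PowerSeries.coeff 0 U = 0)
    (hx0 : PowerSeries.coeff 0 X = 0) (hv0 : PowerSeries.coeff 0 V = 0)
    (h : ∀ᶠ y in 𝓝 (0 : ℂ), ∫ s in (0 : ℝ)..1, F (u y + s * x y) * Complex.sin (s * x y - v y) = 0)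
    (n : ℕ) : ∀ j < n, PowerSeries.coeff j (∑ i ∈ Finset.range n, ∑ l ∈ Finset.range n,
      PowerSeries.C (PowerSeries.coeff i r * sn l) * Pil PowerSeries.C i l U X V) = 0 := by
  -- the expansion of the polynomial part
  have hP : HE (fun y => ∑ i ∈ Finset.range n, ∑ l ∈ Finset.range n,
      (PowerSeries.coeff i r * sn l) * Pil (RingHom.id ℂ) i l (u y) (x y) (v y))
      (∑ i ∈ Finset.range n, ∑ l ∈ Finset.range n,
        PowerSeries.C (PowerSeries.coeff i r * sn l) * Pil PowerSeries.C i l U X V) :=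
    HE.sum _ fun i _ => HE.sum _ fun l _ => (HE.const _).mul (HE.pil hu hx hv i l)
  refine hP.coeff_zero ?_
  -- bounds
  have b1 : ∀ {f : ℂ → ℂ} {c : PowerSeries ℂ}, HE f c → PowerSeries.coeff 0 c = 0 →
      ∃ K > 0, ∀ᶠ y in 𝓝 (0 : ℂ), ‖f y‖ ≤ K * ‖y‖ := by
    intro f c hf hc
    obtain ⟨K, hK0, hK⟩ := (hf.bigO 1 (by
      intro j hj
      obtain rfl : j = 0 := by omega
      exact hc)).exists_pos
    refine ⟨K, hK0, ?_⟩
    filter_upwards [hK.bound] with y hy
    simpa using hy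
  obtain ⟨K₁, hK₁, e₁⟩ := b1 hu hu0
  obtain ⟨K₂, hK₂, e₂⟩ := b1 hx hx0
  obtain ⟨K₃, hK₃, e₃⟩ := b1 hv hv0
  set K := K₁ + K₂ + K₃ with hK
  have hK0 : 0 < K := by positivity
  obtain ⟨C₁, hC₁, ε₁, hε₁, g₁⟩ := hF.le n
  obtain ⟨C₂, hC₂, ε₂, hε₂, g₂⟩ := sn_HE.le n
  obtain ⟨ε₃, hε₃, hFc⟩ := hFd
  -- bounded: trunc r and sin on the unit ball
  obtain ⟨B₁, hB₁⟩ := (isCompact_closedBall (0 : ℂ) 1).exists_bound_of_continuousOn
    (f := fun z => (PowerSeries.trunc n r).eval z) ((PowerSeries.trunc n r).continuous.continuousOn)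
  obtain ⟨B₂, hB₂⟩ := (isCompact_closedBall (0 : ℂ) 1).exists_bound_of_continuousOn
    (f := Complex.sin) Complex.continuous_sin.continuousOn
  have hB₁0 : 0 ≤ B₁ := (norm_nonneg _).trans (hB₁ 0 (by simp))
  have hB₂0 : 0 ≤ B₂ := (norm_nonneg _).trans (hB₂ 0 (by simp))
  set η := min (min ε₁ ε₂) (min ε₃ 1) with hη
  have hη0 : 0 < η := by positivity
  have e₄ : ∀ᶠ y in 𝓝 (0 : ℂ), K * ‖y‖ < η := by
    have : Tendsto (fun y : ℂ => K * ‖y‖) (𝓝 0) (𝓝 (K * ‖(0 : ℂ)‖)) :=
      ((continuous_norm.tendsto 0).const_mul K)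
    rw [norm_zero, mul_zero] at this
    exact this.eventually (gt_mem_nhds hη0)
  refine IsBigO.of_bound ((C₁ * B₂ + B₁ * C₂) * K ^ n) ?_
  filter_upwards [e₁, e₂, e₃, e₄, h] with y h1 h2 h3 h4 h5
  have hz : ∀ s ∈ Set.uIcc (0 : ℝ) 1, ‖u y + s * x y‖ ≤ K * ‖y‖ ∧ ‖s * x y - v y‖ ≤ K * ‖y‖ := by
    intro s hs
    rw [Set.uIcc_of_le zero_le_one] at hs
    have hs1 : ‖(s : ℂ)‖ ≤ 1 := by
      rw [norm_real, Real.norm_eq_abs, abs_of_nonneg hs.1]
      exact hs.2
    have hsx : ‖(s : ℂ) * x y‖ ≤ K₂ * ‖y‖ := by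
      rw [norm_mul]
      calc ‖(s : ℂ)‖ * ‖x y‖ ≤ 1 * ‖x y‖ := by gcongr
        _ ≤ K₂ * ‖y‖ := by rw [one_mul]; exact h2
    have hy := norm_nonneg y
    constructor
    · calc ‖u y + s * x y‖ ≤ ‖u y‖ + ‖(s : ℂ) * x y‖ := norm_add_le _ _
        _ ≤ K₁ * ‖y‖ + K₂ * ‖y‖ := add_le_add h1 hsx
        _ ≤ K * ‖y‖ := by rw [hK]; nlinarith
    · calc ‖s * x y - v y‖ ≤ ‖(s : ℂ) * x y‖ + ‖v y‖ := norm_sub_le _ _
        _ ≤ K₂ * ‖y‖ + K₃ * ‖y‖ := add_le_add hsx h3
        _ ≤ K * ‖y‖ := by rw [hK]; nlinarith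
  -- the integral of the polynomial part
  have i1 : ∑ i ∈ Finset.range n, ∑ l ∈ Finset.range n,
      (PowerSeries.coeff i r * sn l) * Pil (RingHom.id ℂ) i l (u y) (x y) (v y) =
      ∫ s in (0 : ℝ)..1, (PowerSeries.trunc n r).eval (u y + s * x y) *
        (PowerSeries.trunc n (tay Complex.sin)).eval (s * x y - v y) := by
    have h6 : ∀ s : ℝ, (PowerSeries.trunc n r).eval (u y + s * x y) *
        (PowerSeries.trunc n (tay Complex.sin)).eval (s * x y - v y) =
        ∑ i ∈ Finset.range n, ∑ l ∈ Finset.range n,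
          (PowerSeries.coeff i r * sn l) * ((u y + s * x y) ^ i * (s * x y - v y) ^ l) := by
      intro s
      rw [PowerSeries.trunc_apply, PowerSeries.trunc_apply, Polynomial.eval_finset_sum,
        Polynomial.eval_finset_sum, ← Finset.range_eq_Ico, Finset.sum_mul_sum]
      refine Finset.sum_congr rfl fun i _ => Finset.sum_congr rfl fun l _ => ?_
      rw [Polynomial.eval_monomial, Polynomial.eval_monomial, sn]
      ring
    simp only [h6]
    rw [intervalIntegral.integral_finset_sum fun a _ => by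
      refine Continuous.intervalIntegrable ?_ _ _
      fun_prop]
    refine Finset.sum_congr rfl fun i _ => ?_
    rw [intervalIntegral.integral_finset_sum fun a _ => by
      refine Continuous.intervalIntegrable ?_ _ _
      fun_prop]
    refine Finset.sum_congr rfl fun l _ => ?_
    rw [intervalIntegral.integral_const_mul, int_pil]
  have i2 : IntervalIntegrable (fun s : ℝ => (PowerSeries.trunc n r).eval (u y + s * x y) *
      (PowerSeries.trunc n (tay Complex.sin)).eval (s * x y - v y)) MeasureTheory.volume 0 1 := by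
    refine Continuous.intervalIntegrable ?_ _ _
    exact ((PowerSeries.trunc n r).continuous.comp (by fun_prop)).mul
      ((PowerSeries.trunc n (tay Complex.sin)).continuous.comp (by fun_prop))
  have i3 : IntervalIntegrable (fun s : ℝ => F (u y + s * x y) * Complex.sin (s * x y - v y))
      MeasureTheory.volume 0 1 := by
    refine ContinuousOn.intervalIntegrable ?_
    refine ContinuousOn.mul ?_ (Continuous.continuousOn (by fun_prop))
    refine hFc.comp (Continuous.continuousOn (by fun_prop)) ?_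
    intro s hs
    rw [mem_ball_zero_iff]
    have := (hz s hs).1
    have h7 : η ≤ ε₃ := (min_le_right _ _).trans (min_le_left _ _)
    linarith
  rw [i1]
  have i4 : ∫ s in (0 : ℝ)..1, (PowerSeries.trunc n r).eval (u y + s * x y) *
      (PowerSeries.trunc n (tay Complex.sin)).eval (s * x y - v y) =
      ∫ s in (0 : ℝ)..1, ((PowerSeries.trunc n r).eval (u y + s * x y) *
        (PowerSeries.trunc n (tay Complex.sin)).eval (s * x y - v y) -
        F (u y + s * x y) * Complex.sin (s * x y - v y)) := by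
    rw [intervalIntegral.integral_sub i2 i3, h5, sub_zero]
  rw [i4]
  have i5 := intervalIntegral.norm_integral_le_of_norm_le_const (a := (0 : ℝ)) (b := 1)
    (C := (C₁ * B₂ + B₁ * C₂) * (K * ‖y‖) ^ n)
    (f := fun s : ℝ => (PowerSeries.trunc n r).eval (u y + s * x y) *
        (PowerSeries.trunc n (tay Complex.sin)).eval (s * x y - v y) -
        F (u y + s * x y) * Complex.sin (s * x y - v y)) (by
      intro s hs
      obtain ⟨hz1, ht1⟩ := hz s (Set.uIoc_subset_uIcc hs)
      set z := u y + s * x y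
      set t := s * x y - v y
      have hz2 : ‖z‖ < η := lt_of_le_of_lt hz1 h4
      have ht2 : ‖t‖ < η := lt_of_le_of_lt ht1 h4
      have a1 : ‖F z - (PowerSeries.trunc n r).eval z‖ ≤ C₁ * (K * ‖y‖) ^ n := by
        refine (g₁ z (lt_of_lt_of_le hz2 ((min_le_left _ _).trans (min_le_left _ _)))).trans ?_
        gcongr
      have a2 : ‖Complex.sin t - (PowerSeries.trunc n (tay Complex.sin)).eval t‖ ≤
          C₂ * (K * ‖y‖) ^ n := by
        refine (g₂ t (lt_of_lt_of_le ht2 ((min_le_left _ _).trans (min_le_right _ _)))).trans ?_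
        gcongr
      have hη1 : η ≤ 1 := (min_le_right _ _).trans (min_le_right _ _)
      have a3 : ‖(PowerSeries.trunc n r).eval z‖ ≤ B₁ := hB₁ z (by
        rw [mem_closedBall_zero_iff]; linarith)
      have a4 : ‖Complex.sin t‖ ≤ B₂ := hB₂ t (by
        rw [mem_closedBall_zero_iff]; linarith)
      have e : (PowerSeries.trunc n r).eval z * (PowerSeries.trunc n (tay Complex.sin)).eval t -
          F z * Complex.sin t = -((F z - (PowerSeries.trunc n r).eval z) * Complex.sin t) -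
            (PowerSeries.trunc n r).eval z *
              (Complex.sin t - (PowerSeries.trunc n (tay Complex.sin)).eval t) := by ring
      rw [e]
      refine (norm_sub_le _ _).trans ?_
      rw [norm_neg, norm_mul, norm_mul]
      have hy : 0 ≤ (K * ‖y‖) ^ n := by positivity
      calc _ ≤ C₁ * (K * ‖y‖) ^ n * B₂ + B₁ * (C₂ * (K * ‖y‖) ^ n) := by gcongr
        _ = _ := by ring)
  refine i5.trans (le_of_eq ?_)
  rw [mul_pow, norm_pow]
  simp
  ring

end Vale.Agent.P097.H402.Rat
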