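import Mathlib

/-! # P097 / RAT-B: asymptotic expansions at `0` -/

set_option linter.all false

open Complex Metric Filter Topology Set Asymptotics
open scoped Polynomial

namespace Vale.Agent.P097.H402.Rat

theorem pow_bigO_pow {m n : ℕ} (h : n ≤ m) :
    (fun y : ℂ => y ^ m) =O[𝓝 0] fun y => y ^ n := by
  obtain ⟨k, rfl⟩ := Nat.exists_eq_add_of_le h
  have h1 : (fun y : ℂ => y ^ k) =O[𝓝 0] fun _ => (1 : ℂ) :=
    ((continuous_pow k).continuousAt (x := (0 : ℂ))).isBigO_one ℂ
  have := (isBigO_refl (fun y : ℂ => y ^ n) (𝓝 0)).mul h1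
  refine (this.congr (fun y => ?_) (fun y => ?_))
  · rw [← pow_add]
  · rw [mul_one]

theorem poly_bigO (p : ℂ[X]) (n : ℕ) (h : ∀ j < n, p.coeff j = 0) :
    (fun y : ℂ => p.eval y) =O[𝓝 0] fun y => y ^ n := by
  obtain ⟨q, rfl⟩ := Polynomial.X_pow_dvd_iff.mpr h
  have h1 : (fun y : ℂ => q.eval y) =O[𝓝 0] fun _ => (1 : ℂ) :=
    (q.continuous.continuousAt (x := (0 : ℂ))).isBigO_one ℂ
  have := (isBigO_refl (fun y : ℂ => y ^ n) (𝓝 0)).mul h1
  refine (this.congr (fun y => ?_) (fun y => ?_))
  · simp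
  · rw [mul_one]

theorem poly_of_bigO (p : ℂ[X]) (n : ℕ)
    (h : (fun y : ℂ => p.eval y) =O[𝓝 0] fun y => y ^ n) : ∀ j < n, p.coeff j = 0 := by
  intro j
  induction j using Nat.strong_induction_on with
  | _ j ih =>
    intro hj
    have h0 : ∀ i < j, p.coeff i = 0 := fun i hi => ih i hi (by omega)
    obtain ⟨q, rfl⟩ := Polynomial.X_pow_dvd_iff.mpr h0
    have hq : (Polynomial.X ^ j * q).coeff j = q.eval 0 := by
      rw [Polynomial.coeff_X_pow_mul', if_pos le_rfl, Nat.sub_self, Polynomial.coeff_zero_eq_eval_zero]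
    rw [hq]
    have h1 : (fun y : ℂ => y ^ j * q.eval y) =O[𝓝 0] fun y => y ^ j * y := by
      refine (h.trans (pow_bigO_pow (m := n) (n := j + 1) (by omega))).congr (fun y => ?_)
        (fun y => ?_)
      · simp
      · ring
    have h2 : (fun y : ℂ => q.eval y) =O[𝓝[≠] 0] fun y => y := by
      obtain ⟨C, hC⟩ := h1.bound
      refine IsBigO.of_bound C ?_
      filter_upwards [nhdsWithin_le_nhds hC, self_mem_nhdsWithin] with y hy hy0
      rw [norm_mul, norm_mul] at hy
      have hp : 0 < ‖y ^ j‖ := norm_pos_iff.mpr (pow_ne_zero _ hy0)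
      have : ‖y ^ j‖ * ‖q.eval y‖ ≤ ‖y ^ j‖ * (C * ‖y‖) := by nlinarith
      exact le_of_mul_le_mul_left this hp
    have h3 : Tendsto (fun y : ℂ => q.eval y) (𝓝[≠] 0) (𝓝 0) := by
      refine h2.trans_tendsto ?_
      exact tendsto_nhdsWithin_of_tendsto_nhds tendsto_id
    have h4 : Tendsto (fun y : ℂ => q.eval y) (𝓝[≠] 0) (𝓝 (q.eval 0)) :=
      (q.continuous.tendsto 0).mono_left nhdsWithin_le_nhds
    exact tendsto_nhds_unique h4 h3

/-- `f` has the asymptotic expansion `c` at `0` -/
def HE (f : ℂ → ℂ) (c : PowerSeries ℂ) : Prop :=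
  ∀ n : ℕ, (fun y => f y - (PowerSeries.trunc n c).eval y) =O[𝓝 0] fun y => y ^ n

variable {f g : ℂ → ℂ} {c d : PowerSeries ℂ}

theorem HE.congr (h : HE f c) (hfg : f =ᶠ[𝓝 0] g) : HE g c := fun n =>
  (h n).congr' (by filter_upwards [hfg] with y hy; rw [hy]) EventuallyEq.rfl

theorem HE.add (hf : HE f c) (hg : HE g d) : HE (fun y => f y + g y) (c + d) := fun n => by
  refine ((hf n).add (hg n)).congr_left fun y => ?_
  simp only [map_add, Polynomial.eval_add]
  abel

theorem HE.neg (hf : HE f c) : HE (fun y => -f y) (-c) := fun n => by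
  refine (hf n).neg_left.congr_left fun y => ?_
  have : PowerSeries.trunc n (-c) = -PowerSeries.trunc n c := by
    ext m
    simp only [PowerSeries.coeff_trunc, Polynomial.coeff_neg, map_neg]
  rw [this, Polynomial.eval_neg]
  ring

theorem HE.sub (hf : HE f c) (hg : HE g d) : HE (fun y => f y - g y) (c - d) := by
  have := hf.add hg.neg
  simpa [sub_eq_add_neg] using this

theorem HE.const (a : ℂ) : HE (fun _ => a) (PowerSeries.C a) := by
  intro n
  rcases n with _ | n
  · simp only [PowerSeries.trunc_zero', Polynomial.eval_zero, sub_zero, pow_zero]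
    exact isBigO_const_const _ one_ne_zero _
  · rw [PowerSeries.trunc_C]
    simp only [Polynomial.eval_C, sub_self]
    exact isBigO_zero _ _

theorem HE.id : HE (fun y => y) PowerSeries.X := by
  intro n
  match n with
  | 0 =>
    simp only [PowerSeries.trunc_zero', Polynomial.eval_zero, sub_zero, pow_zero]
    exact (continuous_id.continuousAt (x := (0 : ℂ))).isBigO_one ℂ
  | 1 =>
    simp only [PowerSeries.trunc_one_X, Polynomial.eval_zero, sub_zero, pow_one]
    exact isBigO_refl _ _
  | n + 2 =>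
    rw [PowerSeries.trunc_X]
    simp only [Polynomial.eval_X, sub_self]
    exact isBigO_zero _ _

theorem HE.bigO (hf : HE f c) (n : ℕ) (h : ∀ j < n, PowerSeries.coeff j c = 0) :
    f =O[𝓝 0] fun y => y ^ n := by
  have h1 : PowerSeries.trunc n c = 0 := by
    ext m
    rw [PowerSeries.coeff_trunc]
    split_ifs with hm
    · simp [h m hm]
    · simp
  have := hf n
  rw [h1] at this
  simpa using this

theorem HE.bdd (hf : HE f c) : f =O[𝓝 0] fun _ => (1 : ℂ) := by
  have := hf.bigO 0 (by simp)
  simpa using this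

theorem HE.mul (hf : HE f c) (hg : HE g d) : HE (fun y => f y * g y) (c * d) := fun n => by
  have h1 := (hf n).mul hg.bdd
  have h2 : (fun y => (PowerSeries.trunc n c).eval y) =O[𝓝 0] fun _ => (1 : ℂ) :=
    ((PowerSeries.trunc n c).continuous.continuousAt (x := (0 : ℂ))).isBigO_one ℂ
  have h3 := h2.mul (hg n)
  have h4 : (fun y => ((PowerSeries.trunc n c * PowerSeries.trunc n d) -
      PowerSeries.trunc n (c * d)).eval y) =O[𝓝 0] fun y : ℂ => y ^ n := by
    refine poly_bigO _ n fun j hj => ?_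
    rw [Polynomial.coeff_sub, PowerSeries.coeff_trunc, if_pos hj,
      PowerSeries.coeff_mul_eq_coeff_trunc_mul_trunc c d hj, ← Polynomial.coe_mul,
      Polynomial.coeff_coe, sub_self]
  refine ((h1.trans ?_).add (h3.trans ?_)).add h4 |>.congr_left fun y => ?_
  · simp only [mul_one]
    exact isBigO_refl _ _
  · simp only [one_mul]
    exact isBigO_refl _ _
  · simp only [Polynomial.eval_sub, Polynomial.eval_mul]
    ring

theorem HE.pow (hf : HE f c) (k : ℕ) : HE (fun y => f y ^ k) (c ^ k) := by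
  induction k with
  | zero => simpa using HE.const 1
  | succ k ih => simpa [pow_succ] using ih.mul hf

theorem HE.sum {ι : Type*} (s : Finset ι) {F : ι → ℂ → ℂ} {C : ι → PowerSeries ℂ}
    (h : ∀ i ∈ s, HE (F i) (C i)) : HE (fun y => ∑ i ∈ s, F i y) (∑ i ∈ s, C i) := by
  classical
  induction s using Finset.induction_on with
  | empty => simpa using HE.const 0
  | insert a s ha ih =>
    simp only [Finset.sum_insert ha]
    exact (h a (Finset.mem_insert_self _ _)).add
      (ih fun i hi => h i (Finset.mem_insert_of_mem hi))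

theorem HE.smul (hf : HE f c) (a : ℂ) : HE (fun y => a * f y) (PowerSeries.C a * c) :=
  (HE.const a).mul hf

/-- coefficients below the order of vanishing are zero -/
theorem HE.coeff_zero (hf : HE f c) {n : ℕ} (h : f =O[𝓝 0] fun y => y ^ n) :
    ∀ j < n, PowerSeries.coeff j c = 0 := by
  intro j hj
  have h1 : (fun y => (PowerSeries.trunc n c).eval y) =O[𝓝 0] fun y : ℂ => y ^ n := by
    refine (h.sub (hf n)).congr_left fun y => ?_
    ring
  have := poly_of_bigO _ n h1 j hj
  rwa [PowerSeries.coeff_trunc, if_pos hj] at this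

theorem HE.unique (hf : HE f c) (hg : HE f d) : c = d := by
  ext n
  have h0 : HE (fun y => f y - f y) (c - d) := hf.sub hg
  have := h0.coeff_zero (n := n + 1) (by simpa using isBigO_zero _ _) n (by omega)
  rw [map_sub, sub_eq_zero] at this
  exact this

/-- Taylor series at `0` -/
noncomputable def tay (f : ℂ → ℂ) : PowerSeries ℂ :=
  PowerSeries.mk fun n => iteratedDeriv n f 0 / (n.factorial : ℂ)

theorem HE_tay (h : AnalyticAt ℂ f 0) : HE f (tay f) := by
  intro n
  have h1 := h.hasFPowerSeriesAt.isBigO_sub_partialSum_pow n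
  have h2 : ∀ y : ℂ, (FormalMultilinearSeries.ofScalars ℂ
      (fun n => iteratedDeriv n f 0 / (n.factorial : ℂ))).partialSum n y =
      (PowerSeries.trunc n (tay f)).eval y := by
    intro y
    rw [FormalMultilinearSeries.partialSum, PowerSeries.trunc_apply, Polynomial.eval_finset_sum]
    rw [← Finset.range_eq_Ico]
    refine Finset.sum_congr rfl fun k hk => ?_
    rw [FormalMultilinearSeries.ofScalars_apply_eq, Polynomial.eval_monomial, tay,
      PowerSeries.coeff_mk, smul_eq_mul]
  have h3 : (fun y => f (0 + y) - (FormalMultilinearSeries.ofScalars ℂ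
      (fun n => iteratedDeriv n f 0 / (n.factorial : ℂ))).partialSum n y) =O[𝓝 0]
      fun y : ℂ => ‖y‖ ^ n := h1
  have h4 := h3.congr_left (f₂ := fun y => f y - (PowerSeries.trunc n (tay f)).eval y)
    (fun y => by rw [h2, zero_add])
  refine h4.trans ?_
  refine IsBigO.of_bound 1 (Eventually.of_forall fun y => ?_)
  simp

end Vale.Agent.P097.H402.Rat
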