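import Vale.Agent.P097.H402.Rat.Main
import Vale.Agent.P097.H402.Equiv
import Vale.Agent.P097.H407.Final
import Vale.Agent.P097.H438.Final
import Vale.Agent.P097.H128.Conic
import Vale.Agent.P097.H536.T9

/-! # P097 / RAT: final statements -/

set_option linter.all false

namespace Vale.Agent.P097.H402.Rat

open Vale.Agent.P097 Vale.Agent.P097.H402

/-- **Theorem RAT**, with a collar or with the rational curves of small rotation number -/
theorem ellipse_of_leaves {h : ℝ → ℝ} {η : ℝ} (h0 : 0 < η) (Hs : SmoothTable h)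
    (hL : Collar h η ∨ H407.Leaves h η) (hr : RatCl (fun x => h x + deriv (deriv h) x)) :
    H407.IsEllipse h := by
  obtain ⟨η', hη', hc⟩ : ∃ η : ℝ, 0 < η ∧ Collar h η := by
    rcases hL with hL | hL
    · exact ⟨η, h0, hL⟩
    · exact (equivalence Hs).1.2 ⟨η, h0, hL⟩
  exact rat_main h η' hη' Hs hc hr

/-- **Theorem RAT**, literal form -/
theorem domain_of_integrable (B : H438.Table) (hB : B.IntegrableNearBoundary)
    (hr : RatCl (fun x => H536.supp B.Ω x + deriv (deriv (H536.supp B.Ω)) x)) :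
    H438.EllipseDomain B.Ω := by
  obtain ⟨η, hη, hc⟩ := B.collar_of_integrable hB
  have e : H536.supp B.Ω = B.hs := funext (H536.supp_eq B)
  rw [e] at hr
  obtain ⟨a, b, φ, p, q, ha, hb, h⟩ := rat_main B.hs η hη B.hs_table hc hr
  exact B.ellipse_of_support ha hb fun ψ => congrFun h ψ

/-- ellipses are in the class -/
theorem ratCl_ellipse {a b : ℝ} (φ p q : ℝ) (ha : 0 < a) (hb : 0 < b) :
    RatCl (fun x => H407.ellipse a b φ p q x + deriv (deriv (H407.ellipse a b φ p q)) x) := by
  obtain ⟨d1, d2, h3⟩ := H128.ellipse_curv (φ := φ) ha hb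
  set S : ℝ → ℝ := fun ψ => √(a ^ 2 * Real.cos (ψ - φ) ^ 2 + b ^ 2 * Real.sin (ψ - φ) ^ 2) with hS
  set R : ℝ → ℝ := fun ψ => a ^ 2 * Real.cos (ψ - φ) ^ 2 + b ^ 2 * Real.sin (ψ - φ) ^ 2 with hR
  have hR0 : ∀ x, 0 < R x := by
    intro x
    have h1 := Real.sin_sq_add_cos_sq (x - φ)
    by_cases hc : Real.cos (x - φ) = 0
    · have : Real.sin (x - φ) ^ 2 = 1 := by rw [hc] at h1; linarith
      simp only [hR, hc, this]
      positivity
    · have := sq_pos_of_ne_zero hc
      simp only [hR]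
      positivity
  have e1 : deriv (H407.ellipse a b φ p q) =
      fun x => -p * Real.sin x + q * Real.cos x + deriv S x := by
    funext x
    have h1 : HasDerivAt (fun x => p * Real.cos x + q * Real.sin x + S x)
        (p * -Real.sin x + q * Real.cos x + deriv S x) x :=
      (((Real.hasDerivAt_cos x).const_mul p).add ((Real.hasDerivAt_sin x).const_mul q)).add
        (d1 x).hasDerivAt
    have h2 := h1.deriv
    rw [show H407.ellipse a b φ p q = fun x => p * Real.cos x + q * Real.sin x + S x from rfl, h2]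
    ring
  have e2 : deriv (deriv (H407.ellipse a b φ p q)) =
      fun x => -p * Real.cos x - q * Real.sin x + deriv (deriv S) x := by
    rw [e1]
    funext x
    have h1 : HasDerivAt (fun x => -p * Real.sin x + q * Real.cos x + deriv S x)
        (-p * Real.cos x + q * -Real.sin x + deriv (deriv S) x) x :=
      (((Real.hasDerivAt_sin x).const_mul (-p)).add ((Real.hasDerivAt_cos x).const_mul q)).add
        (d2 x).hasDerivAt
    rw [h1.deriv]
    ring
  refine ⟨fun _ => 0, fun _ => 1, 2, ![fun _ => a ^ 2 * b ^ 2, R], ![1, -3 / 2], ?_, ?_, ?_, ?_, ?_,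
    ?_⟩
  · exact ⟨0, fun _ => 0, fun _ => 0, fun x => by simp⟩
  · exact ⟨0, fun _ => 1, fun _ => 0, fun x => by simp⟩
  · intro x
    exact one_ne_zero
  · intro i
    fin_cases i
    · exact ⟨0, fun _ => a ^ 2 * b ^ 2, fun _ => 0, fun x => by simp⟩
    · refine ⟨2, ![(a ^ 2 + b ^ 2) / 2, 0, (a ^ 2 - b ^ 2) / 2 * Real.cos (2 * φ)] ∘ fun k : ℕ =>
        (Fin.ofNat 3 k), ![0, 0, (a ^ 2 - b ^ 2) / 2 * Real.sin (2 * φ)] ∘ fun k : ℕ =>
        (Fin.ofNat 3 k), fun x => ?_⟩
      have h1 : Real.cos (x - φ) ^ 2 = 1 / 2 + (Real.cos (2 * x) * Real.cos (2 * φ) +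
          Real.sin (2 * x) * Real.sin (2 * φ)) / 2 := by
        rw [Real.cos_sq, show 2 * (x - φ) = 2 * x - 2 * φ by ring, Real.cos_sub]
      have h2 : Real.sin (x - φ) ^ 2 = 1 / 2 - (Real.cos (2 * x) * Real.cos (2 * φ) +
          Real.sin (2 * x) * Real.sin (2 * φ)) / 2 := by
        rw [Real.sin_sq, h1]
        ring
      simp only [Finset.sum_range_succ, Finset.sum_range_zero, Function.comp]
      show a ^ 2 * Real.cos (x - φ) ^ 2 + b ^ 2 * Real.sin (x - φ) ^ 2 = _
      rw [h1, h2]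
      simp [Fin.ofNat]
      ring
  · intro i x
    fin_cases i
    · show 0 < a ^ 2 * b ^ 2
      positivity
    · exact hR0 x
  · intro x
    show H407.ellipse a b φ p q x + deriv (deriv (H407.ellipse a b φ p q)) x = _
    rw [e2]
    have h4 := h3 x
    have h5 : S x ^ 3 = R x ^ (3 / 2 : ℝ) := by
      show √(R x) ^ 3 = _
      rw [Real.sqrt_eq_rpow, ← Real.rpow_natCast, ← Real.rpow_mul (hR0 x).le]
      norm_num
    simp only [Fin.prod_univ_two, Matrix.cons_val_zero, Matrix.cons_val_one, zero_div, Real.exp_zero,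
      one_mul, Real.rpow_one]
    rw [show (-3 / 2 : ℝ) = -(3 / 2) by norm_num, Real.rpow_neg (hR0 x).le, ← h5, ← div_eq_mul_inv,
      ← h4]
    show p * Real.cos x + q * Real.sin x + S x + _ = _
    ring

end Vale.Agent.P097.H402.Rat
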