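import Vale.Agent.P097.H402.Rat.PBa

/-! # P097 / RAT-B: locality of the pencil Hamiltonian -/

set_option linter.all false

open Complex Metric Filter Topology Set Asymptotics
open scoped Polynomial ComplexConjugate

namespace Vale.Agent.P097.H402.Rat

open Vale.Agent.P097.TA Vale.Agent.P097.H202

variable {R : ℂ → ℂ} {δ : ℝ} {E ξ X : ℂ → ℂ → ℂ} {N D : ℂ[X]}

theorem fs_zero : fs (fun t y => (Tn X 0 ((t : ℂ), y)).1 - t) = 0 := by
  symm
  refine fs_ext fun t => ?_
  rw [map_zero]
  have h1 : HE (fun y => (Tn X 0 ((t : ℂ), y)).1 - t) 0 := by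
    have := HE.const 0
    rw [map_zero] at this
    refine this.congr (Eventually.of_forall fun y => ?_)
    simp [Tn]
  have h2 : AnalyticAt ℂ (fun y : ℂ => (Tn X 0 ((t : ℂ), y)).1 - (t : ℂ)) 0 := by
    simp only [Tn]
    exact analyticAt_const
  exact h1.unique (HE_tay h2)

theorem fs_id : fs (fun t y => (Tn X 0 ((t : ℂ), y)).2) = PowerSeries.X := by
  symm
  refine fs_ext fun t => ?_
  rw [PowerSeries.map_X]
  have h1 : HE (fun y => (Tn X 0 ((t : ℂ), y)).2) PowerSeries.X := by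
    refine HE.id.congr (Eventually.of_forall fun y => ?_)
    simp [Tn]
  have h2 : AnalyticAt ℂ (fun y : ℂ => (Tn X 0 ((t : ℂ), y)).2) 0 := by
    simp only [Tn]
    exact analyticAt_id
  exact h1.unique (HE_tay h2)

theorem fs_succ1 (P : Pen R δ E ξ X) (k : ℕ) : fs (fun t y => (Tn X (k + 1) ((t : ℂ), y)).1 - t) =
    fs (fun t y => (Tn X k ((t : ℂ), y)).1 - t) + fs (fun t y => xk X k t y) := by
  symm
  refine fs_ext fun t => ?_
  obtain ⟨h1, h2, h3⟩ := tn_an P t k
  obtain ⟨h4, h5⟩ := xk_an P t k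
  have h6 : AnalyticAt ℂ (fun y : ℂ => (Tn X k ((t : ℂ), y)).1 - (t : ℂ)) 0 :=
    h1.sub analyticAt_const
  rw [map_add, map_fs, map_fs, ← tay_add h6 h4]
  congr 1
  funext y
  simp only [Tn, xk]
  ring

theorem fs_succ2 (P : Pen R δ E ξ X) (k : ℕ) : fs (fun t y => (Tn X (k + 1) ((t : ℂ), y)).2) =
    fs (fun t y => xk X k t y) + -fs (fun t y => (Tn X k ((t : ℂ), y)).2) := by
  symm
  refine fs_ext fun t => ?_
  obtain ⟨h1, h2, h3⟩ := tn_an P t k
  obtain ⟨h4, h5⟩ := xk_an P t k
  rw [map_add, map_neg, map_fs, map_fs, ← sub_eq_add_neg, ← tay_sub h4 h2]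
  congr 1

theorem WS_xk (P : Pen R δ E ξ X) (L : RatLog R N D) (k : ℕ)
    (hu : WS D (max N.natDegree D.natDegree) 1 (fs fun t y => (Tn X k ((t : ℂ), y)).1 - t))
    (hv : WS D (max N.natDegree D.natDegree) 1 (fs fun t y => (Tn X k ((t : ℂ), y)).2)) :
    WS D (max N.natDegree D.natDegree) 1 (fs fun t y => xk X k t y) := by
  refine WS.chord (le_max_right _ _) (ρ := rho R) (s := sn) (rho_Am P L) (rho_zero P) sn_zero
    sn_one hu hv ?_ (fun n j hj => chord_rel P k n j hj)
  funext t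
  rw [coeff_fs, tay_coeff_zero, (xk_an P t k).2]
  rfl

theorem WS_tn (P : Pen R δ E ξ X) (L : RatLog R N D) (k : ℕ) :
    WS D (max N.natDegree D.natDegree) 1 (fs fun t y => (Tn X k ((t : ℂ), y)).1 - t) ∧
    WS D (max N.natDegree D.natDegree) 1 (fs fun t y => (Tn X k ((t : ℂ), y)).2) := by
  induction k with
  | zero =>
    rw [fs_zero, fs_id]
    exact ⟨WS.zero _, WS.var⟩
  | succ k ih =>
    rw [fs_succ1 P, fs_succ2 P]
    have hx := WS_xk P L k ih.1 ih.2
    exact ⟨ih.1.add hx, hx.add ih.2.neg⟩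

/-- the first displacement is `2 y + ...` -/
theorem coeff_one_x0 (P : Pen R δ E ξ X) (L : RatLog R N D) (t : ℝ) :
    PowerSeries.coeff 1 (fs fun t y => xk X 0 t y) t = 2 := by
  obtain ⟨hu, hv⟩ := WS_tn P L 0
  have hx := WS_xk P L 0 hu hv
  have h1 := chord_rel P 0 2 1 (by omega)
  rw [fs_zero, fs_id] at h1
  set x := fs fun t y => xk X 0 t y with hxd
  have h0 := sn_zero
  have h1' := sn_one
  simp only [Finset.sum_range_succ, Finset.sum_range_zero, zero_add, sn_zero, sn_one, mul_zero,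
    mul_one, map_add] at h1
  have e0 : PowerSeries.C (fun _ : ℝ => (0 : ℂ)) = (0 : PowerSeries (ℝ → ℂ)) := by
    have : (fun _ : ℝ => (0 : ℂ)) = 0 := rfl
    rw [this, map_zero]
  have hP11 : PowerSeries.coeff 1 (PowerSeries.C (fun t => rho R 1 t) * Pil cc 1 1 0 x
      PowerSeries.X) = 0 := by
    rw [PowerSeries.coeff_C_mul]
    have := WS.pil (le_max_right _ _) (WS.zero 1 : WS D (max N.natDegree D.natDegree) 1 0) hx
      WS.var 1 1
    rw [(this 1).1 (by omega), mul_zero]
  rw [e0, hP11] at h1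
  have hP01 : PowerSeries.coeff 1 (PowerSeries.C (fun t => rho R 0 t) * Pil cc 0 1 0 x
      PowerSeries.X) = fun t => (1 / 2 : ℂ) * PowerSeries.coeff 1 x t - 1 := by
    have hr : (fun t => rho R 0 t) = (1 : ℝ → ℂ) := rho_zero P
    rw [hr, map_one, one_mul, Pil]
    simp only [zero_add, Finset.sum_range_one, Finset.sum_range_succ, Finset.range_one,
      Finset.sum_singleton, pow_zero, one_mul, cc_apply, kap]
    funext t
    simp [PowerSeries.coeff_C_mul, PowerSeries.coeff_one_X]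
    ring
  rw [hP01] at h1
  have h2 := congrFun h1 t
  simp only [zero_mul, map_zero, Pi.add_apply, Pi.zero_apply, add_zero, zero_add] at h2
  linear_combination 2 * h2

/-- expansion of the Newton sums -/
theorem HE_newt (P : Pen R δ E ξ X) (m : ℕ) (t : ℝ) : HE (fun y => newt X m t y)
    (∑ n ∈ Finset.Icc 1 m, PowerSeries.C ((-1 : ℂ) ^ (n + 1) / n) *
      ∑ k ∈ Finset.range (n + 1), PowerSeries.C ((-1 : ℂ) ^ (n - k) * (n.choose k : ℂ)) *
        (tay (fun y => (Tn X k ((t : ℂ), y)).1 - t) + PowerSeries.C (t : ℂ))) := by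
  refine HE.sum _ fun n _ => (HE.sum _ fun k _ => ?_).smul _
  refine HE.smul ?_ _
  obtain ⟨h1, h2, h3⟩ := tn_an P t k
  have h6 : AnalyticAt ℂ (fun y : ℂ => (Tn X k ((t : ℂ), y)).1 - (t : ℂ)) 0 :=
    h1.sub analyticAt_const
  refine ((HE_tay h6).add (HE.const _)).congr (Eventually.of_forall fun y => ?_)
  simp

theorem xi_an (P : Pen R δ E ξ X) (t : ℝ) : AnalyticAt ℂ (fun y => ξ t y) 0 :=
  an_comp (isOpen_BX δ) P.jξ analyticAt_const analyticAt_id
    ⟨by simpa using P.hδ, by simpa using P.hδ⟩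

theorem E_an (P : Pen R δ E ξ X) (t : ℝ) : AnalyticAt ℂ (fun y => E t y) 0 :=
  an_comp (isOpen_BX δ) P.jE analyticAt_const analyticAt_id
    ⟨by simpa using P.hδ, by simpa using P.hδ⟩

theorem coeff_xi (P : Pen R δ E ξ X) (m : ℕ) (t : ℝ) :
    PowerSeries.coeff m (fs fun t y => ξ t y) t = ∑ n ∈ Finset.Icc 1 m, (-1 : ℂ) ^ (n + 1) / n *
      ∑ k ∈ Finset.range (n + 1), ((-1 : ℂ) ^ (n - k) * (n.choose k : ℂ)) *
        PowerSeries.coeff m (fs fun t y => (Tn X k ((t : ℂ), y)).1 - t) t := by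
  obtain ⟨ε, hε, C, hC⟩ := P.newton m
  have h1 := (HE_tay (xi_an P t)).sub (HE_newt P m t)
  have h2 : (fun y => ξ t y - newt X m t y) =O[𝓝 0] fun y : ℂ => y ^ (m + 1) := by
    refine IsBigO.of_bound C ?_
    have : ∀ᶠ y : ℂ in 𝓝 0, ‖y‖ < ε := by
      have := Metric.ball_mem_nhds (0 : ℂ) hε
      filter_upwards [this] with y hy
      simpa using hy
    filter_upwards [this] with y hy
    rw [norm_pow]
    exact hC t y (by simpa using hε) hy
  have h3 := h1.coeff_zero h2 m (by omega)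
  rw [map_sub, sub_eq_zero] at h3
  rw [coeff_fs, h3, map_sum]
  refine Finset.sum_congr rfl fun n hn => ?_
  rw [PowerSeries.coeff_C_mul, map_sum]
  congr 1
  refine Finset.sum_congr rfl fun k hk => ?_
  rw [PowerSeries.coeff_C_mul, map_add, coeff_fs]
  have hm : m ≠ 0 := by
    have := Finset.mem_Icc.mp hn
    omega
  rw [PowerSeries.coeff_C, if_neg hm, add_zero]

theorem WS_xi (P : Pen R δ E ξ X) (L : RatLog R N D) :
    WS D (max N.natDegree D.natDegree) 1 (fs fun t y => ξ t y) := by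
  intro m
  constructor
  · intro hm
    obtain rfl : m = 0 := by omega
    funext t
    rw [coeff_xi P]
    simp
  · have h : PowerSeries.coeff m (fs fun t y => ξ t y) = ∑ n ∈ Finset.Icc 1 m,
        ∑ k ∈ Finset.range (n + 1), fun t => ((-1 : ℂ) ^ (n + 1) / n *
          ((-1 : ℂ) ^ (n - k) * (n.choose k : ℂ))) *
        PowerSeries.coeff m (fs fun t y => (Tn X k ((t : ℂ), y)).1 - t) t := by
      funext t
      rw [coeff_xi P, Finset.sum_apply]
      refine Finset.sum_congr rfl fun n _ => ?_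
      rw [Finset.sum_apply, Finset.mul_sum]
      refine Finset.sum_congr rfl fun k _ => ?_
      ring
    rw [h]
    exact Am.sum _ fun n _ => Am.sum _ fun k _ =>
      ((WS_tn P L k).1 m).2.smul (le_max_right _ _) _

theorem coeff_one_xi (P : Pen R δ E ξ X) (L : RatLog R N D) (t : ℝ) :
    PowerSeries.coeff 1 (fs fun t y => ξ t y) t = 2 := by
  rw [coeff_xi P]
  simp only [Finset.Icc_self, Finset.sum_singleton, Finset.sum_range_succ, Finset.sum_range_zero,
    zero_add]
  rw [fs_succ1 P, fs_zero]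
  have := coeff_one_x0 P L t
  simp only [map_zero, map_add, Pi.add_apply, Pi.zero_apply, this]
  norm_num

/-- `sin` as a power series over functions -/
noncomputable def SIN : PowerSeries (ℝ → ℂ) := PowerSeries.mk fun l _ => sn l

theorem WS_SIN : WS D (max N.natDegree D.natDegree) 1 SIN := by
  intro m
  rw [SIN, PowerSeries.coeff_mk]
  refine ⟨fun h => ?_, (Am.const _).mono (le_max_right _ _) (Nat.zero_le _)⟩
  obtain rfl : m = 0 := by omega
  funext t
  exact sn_zero

theorem co_succ (P : Pen R δ E ξ X) (m : ℕ) (t : ℝ) :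
    co E (m + 1) t = 1 / ((m : ℂ) + 1) * PowerSeries.coeff m ((fs fun t y => ξ t y) * SIN) t := by
  have hE := E_an P t
  have h1 : HE (deriv fun y => E t y) (tay (fun y => ξ t y) * tay Complex.sin) := by
    refine ((HE_tay (xi_an P t)).mul sn_HE).congr ?_
    have : ∀ᶠ y : ℂ in 𝓝 0, ‖y‖ < δ := by
      have := Metric.ball_mem_nhds (0 : ℂ) P.hδ
      filter_upwards [this] with y hy
      simpa using hy
    filter_upwards [this] with y hy
    exact ((P.dE t y ⟨by simpa using P.hδ, hy⟩).deriv).symm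
  have h2 := (HE_tay hE.deriv).unique h1
  have h3 : PowerSeries.coeff m ((fs fun t y => ξ t y) * SIN) t =
      PowerSeries.coeff m (tay (deriv fun y => E t y)) := by
    rw [h2]
    have e2 : ∀ f : PowerSeries (ℝ → ℂ), PowerSeries.coeff m f t =
        PowerSeries.coeff m (PowerSeries.map (Pi.evalRingHom (fun _ : ℝ => ℂ) t) f) := by
      intro f
      rw [PowerSeries.coeff_map]
      rfl
    rw [e2, map_mul, map_fs]
    congr 2
    ext l
    rw [PowerSeries.coeff_map, SIN, PowerSeries.coeff_mk]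
    rfl
  rw [h3, tay, PowerSeries.coeff_mk, co, iteratedDeriv_succ', Nat.factorial_succ]
  have h4 : ((m : ℂ) + 1) ≠ 0 := by exact_mod_cast Nat.succ_ne_zero m
  have h5 : (m.factorial : ℂ) ≠ 0 := by exact_mod_cast m.factorial_ne_zero
  push_cast
  field_simp

theorem co_main (P : Pen R δ E ξ X) (L : RatLog R N D) (m : ℕ) :
    (m < 3 → ∀ t : ℝ, co E m t = 0) ∧
      Am D (max N.natDegree D.natDegree) (m - 3) (fun t => co E m t) := by
  rcases m with _ | m
  · have h0 : ∀ t : ℝ, co E 0 t = 0 := fun t => by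
      rw [co]
      simp [P.E0 t (by simpa using P.hδ)]
    refine ⟨fun _ => h0, ?_⟩
    simp only [h0]
    exact Am.zero _
  · have hW := (WS_xi P L).mul (WS_SIN (N := N) (D := D))
    constructor
    · intro hm t
      rw [co_succ P, (hW m).1 (by omega)]
      simp
    · simp only [co_succ P]
      have := ((hW m).2).smul (le_max_right _ _) (1 / ((m : ℂ) + 1))
      rwa [show m + 1 - 3 = m - (1 + 1) by omega]

theorem co_three (P : Pen R δ E ξ X) (L : RatLog R N D) (t : ℝ) : co E 3 t = 2 / 3 := by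
  rw [show (3 : ℕ) = 2 + 1 from rfl, co_succ P, PowerSeries.coeff_mul]
  have h1 := coeff_one_xi P L t
  have h0 : PowerSeries.coeff 0 (fs fun t y => ξ t y) = 0 := (WS_xi P L 0).1 (by omega)
  have hs0 : PowerSeries.coeff 0 SIN = 0 := by
    rw [SIN, PowerSeries.coeff_mk]
    funext t
    exact sn_zero
  have hs1 : PowerSeries.coeff 1 SIN t = 1 := by
    rw [SIN, PowerSeries.coeff_mk]
    exact sn_one
  rw [Finset.Nat.sum_antidiagonal_eq_sum_range_succ_mk]
  simp only [Finset.sum_range_succ, Finset.sum_range_zero, h0, hs0, zero_mul, mul_zero, add_zero,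
    zero_add, Nat.sub_self, Nat.sub_zero, Pi.mul_apply, h1, show 2 - 1 = 1 from rfl, hs1]
  norm_num

/-- **RAT-B** -/
theorem pb : PB := by
  intro R δ E ξ X N D P L
  have key : ∀ m, ∃ Q : ℂ[X], Q.natDegree ≤ (m - 3) * max N.natDegree D.natDegree ∧
      (m = 3 → Q = Polynomial.C (2 / 3)) ∧ (m < 3 → Q = 0) ∧
      ∀ x : ℝ, co E m x * D.eval (ez x) ^ (m - 3) = Q.eval (ez x) := by
    intro m
    rcases lt_trichotomy m 3 with hm | hm | hm
    · refine ⟨0, by simp, fun h => by omega, fun _ => rfl, fun x => ?_⟩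
      rw [(co_main P L m).1 hm x]
      simp
    · subst hm
      refine ⟨Polynomial.C (2 / 3), by simp, fun _ => rfl, fun h => by omega, fun x => ?_⟩
      rw [co_three P L x]
      simp
    · obtain ⟨Q, hQ, h⟩ := (co_main P L m).2
      refine ⟨Q, hQ, fun h => by omega, fun h => by omega, fun x => ?_⟩
      exact h x
  choose Q h1 h2 h3 h4 using key
  exact ⟨Q, ⟨h1, h2 3 rfl, h3, h4⟩⟩

end Vale.Agent.P097.H402.Rat
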