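import Vale.Agent.P097.H202.PenA
import Vale.Agent.P097.H402.Rat.PBb
import Vale.Agent.P097.H842.RatC
import Vale.Agent.P097.H439.Rat.Ends
import Vale.Agent.P097.H990.K1
import Vale.Agent.P097.H24.K23
import Vale.Agent.P097.H244.K4
import Vale.Agent.P097.H244.K5
import Vale.Agent.P097.H384.RatF
import Vale.Agent.P097.H435.RatG

/-! # P097 / RAT: assembly -/

set_option linter.all false

namespace Vale.Agent.P097.H402.Rat

theorem rat_main : PZ :=
  pz H202.pa pb H842.pc H439.Rat.pd1 H439.Rat.pd2 H439.Rat.pd3 H990.pk1 (H24.pk2_of fun s f h1 h2 => H990.k1 s h1 h2 f)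
    (H24.pk3_of H990.pk1) H244.pk4 H244.pk5 H384.pf H435.RatG.pg

end Vale.Agent.P097.H402.Rat
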