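import Vale.Agent.P097.H402.Rat.Defs
import Vale.Agent.P097.H402.Rat.ChordHE

/-! # P097 / RAT-B: the orbit of a vertex as a weighted power series -/

set_option linter.all false

open Complex Metric Filter Topology Set Asymptotics
open scoped Polynomial ComplexConjugate

namespace Vale.Agent.P097.H402.Rat

open Vale.Agent.P097.TA Vale.Agent.P097.H202

theorem isOpen_BX (δ : ℝ) : IsOpen (BX δ) := by
  have h1 : IsOpen {p : ℂ × ℂ | |p.1.im| < δ} :=
    isOpen_lt ((continuous_im.comp continuous_fst).abs) continuous_const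
  have h2 : IsOpen {p : ℂ × ℂ | ‖p.2‖ < δ} := isOpen_lt (continuous_snd.norm) continuous_const
  exact h1.inter h2

theorem an_comp {f : ℂ → ℂ → ℂ} {S : Set (ℂ × ℂ)} (hS : IsOpen S) (hf : JD f S) {a b : ℂ → ℂ}
    (ha : AnalyticAt ℂ a 0) (hb : AnalyticAt ℂ b 0) (h : (a 0, b 0) ∈ S) :
    AnalyticAt ℂ (fun y => f (a y) (b y)) 0 := by
  rw [Complex.analyticAt_iff_eventually_differentiableAt] at ha hb ⊢
  have hc : ContinuousAt (fun y => (a y, b y)) 0 :=
    (ha.self_of_nhds.continuousAt).prodMk (hb.self_of_nhds.continuousAt)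
  filter_upwards [ha, hb, hc.eventually (hS.mem_nhds h)] with y h1 h2 h3
  have h4 : DifferentiableAt ℂ (fun p : ℂ × ℂ => f p.1 p.2) (a y, b y) :=
    (hf _ h3).differentiableAt (hS.mem_nhds h3)
  exact h4.comp y (h1.prodMk h2)

variable {R : ℂ → ℂ} {δ : ℝ} {E ξ X : ℂ → ℂ → ℂ}

theorem tn_an (P : Pen R δ E ξ X) (t : ℝ) (k : ℕ) :
    AnalyticAt ℂ (fun y => (Tn X k (t, y)).1) 0 ∧ AnalyticAt ℂ (fun y => (Tn X k (t, y)).2) 0 ∧
      Tn X k ((t : ℂ), (0 : ℂ)) = ((t : ℂ), (0 : ℂ)) := by
  have h0 : ((t : ℂ), (0 : ℂ)) ∈ BX δ := ⟨by simpa using P.hδ, by simpa using P.hδ⟩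
  have hX0 : X t 0 = 0 := P.X0 t (by simpa using P.hδ)
  induction k with
  | zero =>
    refine ⟨?_, ?_, rfl⟩
    · simp only [Tn]
      exact analyticAt_const
    · simp only [Tn]
      exact analyticAt_id
  | succ k ih =>
    obtain ⟨h1, h2, h3⟩ := ih
    have hx : AnalyticAt ℂ (fun y => X (Tn X k (t, y)).1 (Tn X k (t, y)).2) 0 :=
      an_comp (isOpen_BX δ) P.jX h1 h2 (by rw [h3]; exact h0)
    refine ⟨?_, ?_, ?_⟩
    · simp only [Tn]
      exact h1.add hx
    · simp only [Tn]
      exact hx.sub h2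
    · simp only [Tn, h3, hX0]
      simp

/-- the chord displacement of the `k`-th step -/
noncomputable def xk (X : ℂ → ℂ → ℂ) (k : ℕ) (t y : ℂ) : ℂ := X (Tn X k (t, y)).1 (Tn X k (t, y)).2

theorem xk_an (P : Pen R δ E ξ X) (t : ℝ) (k : ℕ) :
    AnalyticAt ℂ (fun y => xk X k t y) 0 ∧ xk X k t 0 = 0 := by
  obtain ⟨h1, h2, h3⟩ := tn_an P t k
  have h0 : ((t : ℂ), (0 : ℂ)) ∈ BX δ := ⟨by simpa using P.hδ, by simpa using P.hδ⟩
  refine ⟨an_comp (isOpen_BX δ) P.jX h1 h2 (by rw [h3]; exact h0), ?_⟩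
  rw [xk, h3]
  exact P.X0 t (by simpa using P.hδ)

/-- power series over the functions of the real base point -/
noncomputable def fs (f : ℝ → ℂ → ℂ) : PowerSeries (ℝ → ℂ) :=
  PowerSeries.mk fun m t => PowerSeries.coeff m (tay (f t))

theorem map_fs (f : ℝ → ℂ → ℂ) (t : ℝ) :
    PowerSeries.map (Pi.evalRingHom (fun _ : ℝ => ℂ) t) (fs f) = tay (f t) := by
  ext m
  rw [PowerSeries.coeff_map, fs, PowerSeries.coeff_mk]
  rfl

theorem coeff_fs (f : ℝ → ℂ → ℂ) (m : ℕ) (t : ℝ) :
    PowerSeries.coeff m (fs f) t = PowerSeries.coeff m (tay (f t)) := by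
  rw [fs, PowerSeries.coeff_mk]

theorem tay_add {f g : ℂ → ℂ} (hf : AnalyticAt ℂ f 0) (hg : AnalyticAt ℂ g 0) :
    tay (fun y => f y + g y) = tay f + tay g :=
  (HE_tay (hf.add hg)).unique ((HE_tay hf).add (HE_tay hg))

theorem tay_sub {f g : ℂ → ℂ} (hf : AnalyticAt ℂ f 0) (hg : AnalyticAt ℂ g 0) :
    tay (fun y => f y - g y) = tay f - tay g :=
  (HE_tay (hf.sub hg)).unique ((HE_tay hf).sub (HE_tay hg))

theorem tay_coeff_zero (f : ℂ → ℂ) : PowerSeries.coeff 0 (tay f) = f 0 := by simp [tay]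

theorem fs_ext {f : ℝ → ℂ → ℂ} {F : PowerSeries (ℝ → ℂ)}
    (h : ∀ t, PowerSeries.map (Pi.evalRingHom (fun _ : ℝ => ℂ) t) F = tay (f t)) : F = fs f := by
  ext m t
  have := congrArg (PowerSeries.coeff m) (h t)
  rw [PowerSeries.coeff_map] at this
  rw [coeff_fs]
  exact this

theorem HE_shift {f : ℂ → ℂ} {z : ℂ} (h : AnalyticAt ℂ f z) :
    HE (fun y => f (z + y)) (PowerSeries.mk fun n => iteratedDeriv n f z / (n.factorial : ℂ)) := by
  intro n
  have h1 := h.hasFPowerSeriesAt.isBigO_sub_partialSum_pow n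
  have h2 : ∀ y : ℂ, (FormalMultilinearSeries.ofScalars ℂ
      (fun n => iteratedDeriv n f z / (n.factorial : ℂ))).partialSum n y =
      (PowerSeries.trunc n (PowerSeries.mk fun n =>
        iteratedDeriv n f z / (n.factorial : ℂ))).eval y := by
    intro y
    rw [FormalMultilinearSeries.partialSum, PowerSeries.trunc_apply, Polynomial.eval_finset_sum]
    rw [← Finset.range_eq_Ico]
    refine Finset.sum_congr rfl fun k hk => ?_
    rw [FormalMultilinearSeries.ofScalars_apply_eq, Polynomial.eval_monomial,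
      PowerSeries.coeff_mk, smul_eq_mul]
  have h3 : (fun y => f (z + y) - (FormalMultilinearSeries.ofScalars ℂ
      (fun n => iteratedDeriv n f z / (n.factorial : ℂ))).partialSum n y) =O[𝓝 0]
      fun y : ℂ => ‖y‖ ^ n := h1
  have h4 := h3.congr_left (f₂ := fun y => f (z + y) - (PowerSeries.trunc n (PowerSeries.mk fun n =>
        iteratedDeriv n f z / (n.factorial : ℂ))).eval y)
    (fun y => by rw [h2])
  refine h4.trans ?_
  refine IsBigO.of_bound 1 (Eventually.of_forall fun y => ?_)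
  simp

/-- normalised Taylor coefficients of the radius of curvature -/
noncomputable def rho (R : ℂ → ℂ) (i : ℕ) (t : ℝ) : ℂ :=
  iteratedDeriv i R t / (i.factorial : ℂ) * (R t)⁻¹

theorem anR (P : Pen R δ E ξ X) {z : ℂ} (hz : z ∈ Str δ) : AnalyticAt ℂ R z := by
  rw [Complex.analyticAt_iff_eventually_differentiableAt]
  filter_upwards [(isOpen_Str δ).mem_nhds hz] with w hw
  exact (P.dR w hw).differentiableAt ((isOpen_Str δ).mem_nhds hw)

theorem real_mem (hδ : 0 < δ) (t : ℝ) : (t : ℂ) ∈ Str δ := by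
  rw [mem_Str]
  simpa using hδ

theorem HE_rho (P : Pen R δ E ξ X) (t : ℝ) :
    HE (fun z => R (t + z) * (R t)⁻¹) (PowerSeries.mk fun i => rho R i t) := by
  have h1 := (HE_shift (anR P (real_mem P.hδ t))).mul (HE.const (R t)⁻¹)
  have e : (PowerSeries.mk fun n => iteratedDeriv n R (t : ℂ) / (n.factorial : ℂ)) *
      PowerSeries.C (R t)⁻¹ = PowerSeries.mk fun i => rho R i t := by
    ext m
    rw [PowerSeries.coeff_mul_C, PowerSeries.coeff_mk, PowerSeries.coeff_mk, rho]
  rwa [e] at h1

/-- the chord relations between the Taylor series of a step -/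
theorem chord_rel (P : Pen R δ E ξ X) (k n : ℕ) : ∀ j < n,
    PowerSeries.coeff j (∑ i ∈ Finset.range n, ∑ l ∈ Finset.range n,
      PowerSeries.C (fun t => rho R i t * sn l) *
        Pil cc i l (fs fun t y => (Tn X k (t, y)).1 - t) (fs fun t y => xk X k t y)
          (fs fun t y => (Tn X k (t, y)).2)) = 0 := by
  intro j hj
  funext t
  obtain ⟨h1, h2, h3⟩ := tn_an P t k
  obtain ⟨h4, h5⟩ := xk_an P t k
  have hR0 : R t ≠ 0 := P.R0 _ (real_mem P.hδ t)
  -- transfer to the point `t`
  have e1 : PowerSeries.coeff j (∑ i ∈ Finset.range n, ∑ l ∈ Finset.range n,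
      PowerSeries.C (fun t => rho R i t * sn l) *
        Pil cc i l (fs fun t y => (Tn X k (t, y)).1 - t) (fs fun t y => xk X k t y)
          (fs fun t y => (Tn X k (t, y)).2)) t =
      PowerSeries.coeff j (∑ i ∈ Finset.range n, ∑ l ∈ Finset.range n,
        PowerSeries.C (PowerSeries.coeff i (PowerSeries.mk fun i => rho R i t) * sn l) *
        Pil PowerSeries.C i l (tay fun y => (Tn X k (t, y)).1 - t) (tay fun y => xk X k t y)
          (tay fun y => (Tn X k (t, y)).2)) := by
    have e2 : ∀ f : PowerSeries (ℝ → ℂ), PowerSeries.coeff j f t =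
        PowerSeries.coeff j (PowerSeries.map (Pi.evalRingHom (fun _ : ℝ => ℂ) t) f) := by
      intro f
      rw [PowerSeries.coeff_map]
      rfl
    rw [e2]
    congr 1
    rw [map_sum]
    refine Finset.sum_congr rfl fun i _ => ?_
    rw [map_sum]
    refine Finset.sum_congr rfl fun l _ => ?_
    rw [map_mul, PowerSeries.map_C, Pil_map, map_fs, map_fs, map_fs, PowerSeries.coeff_mk]
    have e3 : (PowerSeries.map (Pi.evalRingHom (fun _ : ℝ => ℂ) t)).comp cc = PowerSeries.C := by
      ext a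
      rw [RingHom.comp_apply, cc_apply, PowerSeries.map_C]
      rfl
    rw [e3]
    rfl
  rw [e1, Pi.zero_apply]
  have hu1 : AnalyticAt ℂ (fun y : ℂ => (Tn X k ((t : ℂ), y)).1 - (t : ℂ)) 0 :=
    h1.sub analyticAt_const
  refine chord_HE (F := fun z => R (t + z) * (R t)⁻¹) (HE_rho P t) ?_ (HE_tay hu1)
    (HE_tay h4) (HE_tay h2) ?_ ?_ ?_ ?_ n j hj
  · refine ⟨δ, P.hδ, ?_⟩
    refine ContinuousOn.mul ?_ continuousOn_const
    refine P.dR.continuousOn.comp (by fun_prop) ?_
    intro z hz
    rw [mem_ball_zero_iff] at hz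
    rw [mem_Str]
    have := abs_im_le_norm z
    simp only [add_im, ofReal_im, zero_add]
    linarith
  · rw [tay_coeff_zero]
    show (Tn X k ((t : ℂ), (0 : ℂ))).1 - (t : ℂ) = 0
    rw [h3]
    simp
  · rw [tay_coeff_zero, h5]
  · rw [tay_coeff_zero, h3]
  · obtain ⟨ε, hε, hc⟩ := P.Xc
    have c1 : ∀ᶠ y in 𝓝 (0 : ℂ), |((Tn X k (t, y)).1).im| < ε := by
      have : Tendsto (fun y => |((Tn X k (t, y)).1).im|) (𝓝 0) (𝓝 |((Tn X k (t, 0)).1).im|) :=
        ((continuous_im.continuousAt.comp h1.continuousAt).abs)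
      rw [h3] at this
      refine this.eventually (gt_mem_nhds (by simpa using hε))
    have c2 : ∀ᶠ y in 𝓝 (0 : ℂ), ‖(Tn X k (t, y)).2‖ < ε := by
      have : Tendsto (fun y => ‖(Tn X k (t, y)).2‖) (𝓝 0) (𝓝 ‖(Tn X k (t, 0)).2‖) :=
        h2.continuousAt.norm
      rw [h3] at this
      refine this.eventually (gt_mem_nhds (by simpa using hε))
    filter_upwards [c1, c2] with y hy1 hy2
    have := hc _ _ hy1 hy2
    rw [Chord] at this
    have e4 : ∀ s : ℝ, R (t + ((Tn X k (t, y)).1 - t + s * xk X k t y)) * (R t)⁻¹ *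
        Complex.sin (s * xk X k t y - (Tn X k (t, y)).2) =
        (R t)⁻¹ * (R ((Tn X k (t, y)).1 + s * X (Tn X k (t, y)).1 (Tn X k (t, y)).2) *
          Complex.sin (s * X (Tn X k (t, y)).1 (Tn X k (t, y)).2 - (Tn X k (t, y)).2)) := by
      intro s
      rw [xk, show (t : ℂ) + ((Tn X k (t, y)).1 - t + s * X (Tn X k (t, y)).1 (Tn X k (t, y)).2) =
        (Tn X k (t, y)).1 + s * X (Tn X k (t, y)).1 (Tn X k (t, y)).2 by ring]
      ring
    rw [intervalIntegral.integral_congr (g := fun s : ℝ => (R t)⁻¹ *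
      (R ((Tn X k (t, y)).1 + s * X (Tn X k (t, y)).1 (Tn X k (t, y)).2) *
          Complex.sin (s * X (Tn X k (t, y)).1 (Tn X k (t, y)).2 - (Tn X k (t, y)).2)))
      (fun s _ => e4 s)]
    rw [intervalIntegral.integral_const_mul, this, mul_zero]

/-! ## The radius of curvature in the filtration -/

/-- numerators of the derivatives of `R` -/
noncomputable def PQ (N D : ℂ[X]) : ℕ → ℂ[X]
  | 0 => 1
  | i + 1 => Polynomial.C I * Polynomial.X * (Polynomial.derivative (PQ N D i) * D -
      Polynomial.C (i : ℂ) * PQ N D i * Polynomial.derivative D) + N * PQ N D i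

theorem PQ_deg (N D : ℂ[X]) (i : ℕ) :
    (PQ N D i).natDegree ≤ i * max N.natDegree D.natDegree := by
  induction i with
  | zero => simp [PQ]
  | succ i ih =>
    set M := max N.natDegree D.natDegree with hM
    have hN : N.natDegree ≤ M := le_max_left _ _
    have hD : D.natDegree ≤ M := le_max_right _ _
    have h3 : (N * PQ N D i).natDegree ≤ (i + 1) * M :=
      Polynomial.natDegree_mul_le.trans (by nlinarith)
    have key : ∀ A B : ℂ[X], B.natDegree ≤ M → A.natDegree ≤ i * M →
        (Polynomial.X * (Polynomial.derivative A * B)).natDegree ≤ (i + 1) * M := by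
      intro A B hB hA
      rcases eq_or_ne (Polynomial.derivative A) 0 with h0 | h0
      · rw [h0]
        simp
      have hA0 : A.natDegree ≠ 0 := by
        intro h1
        rw [Polynomial.natDegree_eq_zero] at h1
        obtain ⟨c, rfl⟩ := h1
        simp at h0
      have h4 := Polynomial.natDegree_derivative_lt hA0
      refine Polynomial.natDegree_mul_le.trans ?_
      have h5 := Polynomial.natDegree_mul_le (p := Polynomial.derivative A) (q := B)
      rw [Polynomial.natDegree_X]
      nlinarith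
    have key2 : (Polynomial.X * (PQ N D i * Polynomial.derivative D)).natDegree ≤ (i + 1) * M := by
      rcases eq_or_ne (Polynomial.derivative D) 0 with h0 | h0
      · rw [h0]
        simp
      have hA0 : D.natDegree ≠ 0 := by
        intro h1
        rw [Polynomial.natDegree_eq_zero] at h1
        obtain ⟨c, rfl⟩ := h1
        simp at h0
      have h4 := Polynomial.natDegree_derivative_lt hA0
      refine Polynomial.natDegree_mul_le.trans ?_
      have h5 := Polynomial.natDegree_mul_le (p := PQ N D i) (q := Polynomial.derivative D)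
      rw [Polynomial.natDegree_X]
      nlinarith
    have e : PQ N D (i + 1) = Polynomial.C I * (Polynomial.X * (Polynomial.derivative (PQ N D i) * D)) -
        Polynomial.C (I * (i : ℂ)) * (Polynomial.X * (PQ N D i * Polynomial.derivative D)) +
        N * PQ N D i := by
      rw [PQ, Polynomial.C_mul]
      ring
    rw [e]
    refine (Polynomial.natDegree_add_le _ _).trans (max_le ?_ h3)
    refine (Polynomial.natDegree_sub_le _ _).trans (max_le ?_ ?_)
    · exact (Polynomial.natDegree_C_mul_le _ _).trans (key _ _ hD ih)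
    · exact (Polynomial.natDegree_C_mul_le _ _).trans key2

theorem ode_str (P : Pen R δ E ξ X) {N D : ℂ[X]} (L : RatLog R N D) {z : ℂ} (hz : z ∈ Str δ) :
    deriv R z * D.eval (ez z) = N.eval (ez z) * R z := by
  have dR' : DifferentiableOn ℂ (deriv R) (Str δ) := P.dR.deriv (isOpen_Str δ)
  have dez : Differentiable ℂ ez := by
    unfold ez
    fun_prop
  have dp : ∀ p : ℂ[X], Differentiable ℂ fun z => p.eval (ez z) := fun p =>
    p.differentiable.comp dez
  have h1 : DifferentiableOn ℂ (fun z => deriv R z * D.eval (ez z)) (Str δ) :=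
    dR'.mul (dp D).differentiableOn
  have h2 : DifferentiableOn ℂ (fun z => N.eval (ez z) * R z) (Str δ) :=
    (dp N).differentiableOn.mul P.dR
  have h0 : (0 : ℂ) ∈ Str δ := by
    have := real_mem P.hδ 0
    simpa using this
  refine (h1.analyticOnNhd (isOpen_Str δ)).eqOn_of_preconnected_of_frequently_eq
    (h2.analyticOnNhd (isOpen_Str δ)) (convex_Str δ).isPreconnected h0 ?_ hz
  rw [frequently_iff]
  intro U hU
  rw [mem_nhdsWithin_iff_exists_mem_nhds_inter] at hU
  obtain ⟨V, hV, hVU⟩ := hU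
  obtain ⟨ε, hε, hb⟩ := Metric.mem_nhds_iff.mp hV
  refine ⟨((ε / 2 : ℝ) : ℂ), hVU ⟨hb ?_, ?_⟩, L.ode _⟩
  · rw [mem_ball_zero_iff, norm_real, Real.norm_eq_abs, abs_of_pos (by positivity)]
    linarith
  · rw [mem_compl_iff, mem_singleton_iff]
    exact_mod_cast (by positivity : ε / 2 ≠ 0)

theorem iter_PQ (P : Pen R δ E ξ X) {N D : ℂ[X]} (L : RatLog R N D) (i : ℕ) :
    ∀ z ∈ Str δ, iteratedDeriv i R z * D.eval (ez z) ^ i = (PQ N D i).eval (ez z) * R z := by
  induction i with
  | zero =>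
    intro z hz
    simp [PQ]
  | succ i ih =>
    intro z hz
    have hO := isOpen_Str δ
    have hez : HasDerivAt ez (ez z * I) z := by
      unfold ez
      have := ((hasDerivAt_id z).const_mul I).cexp
      simpa [mul_comm] using this
    have dDi : ∀ p : ℂ[X], HasDerivAt (fun z => p.eval (ez z))
        ((Polynomial.derivative p).eval (ez z) * (ez z * I)) z := fun p =>
      (p.hasDerivAt (ez z)).comp z hez
    have dit : HasDerivAt (iteratedDeriv i R) (iteratedDeriv (i + 1) R z) z := by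
      rw [iteratedDeriv_succ]
      have han : AnalyticAt ℂ (iteratedDeriv i R) z := by
        rw [iteratedDeriv_eq_iterate]
        exact (anR P hz).iterated_deriv i
      exact han.differentiableAt.hasDerivAt
    have dR : HasDerivAt R (deriv R z) z := (anR P hz).differentiableAt.hasDerivAt
    have e1 := dit.mul ((dDi D).pow i)
    have e2 := (dDi (PQ N D i)).mul dR
    have e3 : (fun z => iteratedDeriv i R z * D.eval (ez z) ^ i) =ᶠ[𝓝 z]
        fun z => (PQ N D i).eval (ez z) * R z := by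
      filter_upwards [hO.mem_nhds hz] with w hw
      exact ih w hw
    have e4 := (e1.congr_of_eventuallyEq e3.symm).unique e2
    simp only [Pi.pow_apply] at e4
    have e5 := ode_str P L hz
    have e6 := ih z hz
    simp only [PQ, Polynomial.eval_add, Polynomial.eval_mul, Polynomial.eval_sub,
      Polynomial.eval_C, Polynomial.eval_X]
    have e7 : (i : ℂ) * D.eval (ez z) ^ (i - 1) * D.eval (ez z) = i * D.eval (ez z) ^ i := by
      rcases i with _ | i
      · simp
      · rw [Nat.add_sub_cancel, pow_succ]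
        ring
    rw [pow_succ]
    set d := D.eval (ez z)
    set d' := (Polynomial.derivative D).eval (ez z)
    linear_combination d * e4 + (PQ N D i).eval (ez z) * e5 -
      iteratedDeriv i R z * (d' * (ez z * I)) * e7 - (i : ℂ) * (d' * (ez z * I)) * e6

theorem rho_Am (P : Pen R δ E ξ X) {N D : ℂ[X]} (L : RatLog R N D) (i : ℕ) :
    Am D (max N.natDegree D.natDegree) i (rho R i) := by
  refine ⟨Polynomial.C (1 / (i.factorial : ℂ)) * PQ N D i,
    (Polynomial.natDegree_C_mul_le _ _).trans (PQ_deg N D i), fun t => ?_⟩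
  have h1 := iter_PQ P L i t (real_mem P.hδ t)
  have hR0 : R t ≠ 0 := P.R0 _ (real_mem P.hδ t)
  rw [Polynomial.eval_mul, Polynomial.eval_C, rho]
  rw [ez] at h1
  have h2 : iteratedDeriv i R t / (i.factorial : ℂ) * (R t)⁻¹ *
      D.eval (Complex.exp (I * (t : ℂ))) ^ i =
      1 / (i.factorial : ℂ) * (R t)⁻¹ *
        (iteratedDeriv i R t * D.eval (Complex.exp (I * (t : ℂ))) ^ i) := by ring
  rw [h2, h1]
  field_simp

theorem rho_zero (P : Pen R δ E ξ X) : rho R 0 = 1 := by
  funext t
  have hR0 : R t ≠ 0 := P.R0 _ (real_mem P.hδ t)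
  simp [rho, hR0]

end Vale.Agent.P097.H402.Rat
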